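import Vale.Agent.P088.R2.H269.W.W14

/-!
# P088, stage 3: operators with potentials, calculus

`Lv f = ∑ ∂_i (a_ij ∂_j f) + v f`, `Qv W f = e^W Lv (e^{-W} f)`.
-/

open MeasureTheory Set Filter
open scoped ContDiff Matrix Topology

noncomputable section

set_option linter.unusedSectionVars false

namespace Vale.Agent.P088.R2.H269

open Vale.Agent.P088.LR Vale.Agent.P088.HY

variable {J E : Type} [Fintype J] [NormedAddCommGroup E] [NormedSpace ℝ E]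
  {e : J → E} {a a₀ a₁ : J → J → E → ℝ} {v v₀ v₁ f g h W : E → ℝ}

/-- `∑ ∂_i (a_ij ∂_j f) + v f` -/
def Lv (e : J → E) (a : J → J → E → ℝ) (v f : E → ℝ) (z : E) : ℝ := Ld e a f z + v z * f z

/-- `e^W Lv (e^{-W} f)` -/
def Qv (e : J → E) (a : J → J → E → ℝ) (v W f : E → ℝ) (z : E) : ℝ := Qd e a W f z + v z * f z

lemma S.Lv (ha : ∀ i j, S (a i j)) (hv : S v) (hf : S f) : S (Lv e a v f) :=
  (S.Ld ha hf).add (hv.mul hf)

lemma S.Qv (ha : ∀ i j, S (a i j)) (hv : S v) (hW : S W) (hf : S f) : S (Qv e a v W f) :=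
  (S.Qd ha hW hf).add (hv.mul hf)

lemma Lv_congr {z₀ : E} (hfg : f =ᶠ[𝓝 z₀] g) : Lv e a v f =ᶠ[𝓝 z₀] Lv e a v g := by
  filter_upwards [Ld_congr (e := e) (a := a) hfg, hfg] with z h1 h2
  unfold H269.Lv
  rw [h1, h2]

lemma Qv_congr {W' : E → ℝ} {z₀ : E} (hW : W =ᶠ[𝓝 z₀] W')
    (hf : f =ᶠ[𝓝 z₀] g) : Qv e a v W f =ᶠ[𝓝 z₀] Qv e a v W' g := by
  filter_upwards [Qd_congr (e := e) (a := a) hW hf, hf] with z h1 h2
  unfold H269.Qv
  rw [h1, h2]

lemma Qv_eq (ha : ∀ i j, S (a i j)) (hs : ∀ i j z, a i j z = a j i z) (hW : S W) (hf : S f)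
    (z : E) : Qv e a v W f z = Real.exp (W z) * Lv e a v (fun w => Real.exp (-W w) * f w) z := by
  unfold H269.Qv H269.Lv
  rw [Qd_eq ha hs hW hf, mul_add]
  congr 1
  have h1 : Real.exp (W z) * Real.exp (-W z) = 1 := by
    rw [← Real.exp_add]
    simp
  calc v z * f z = (Real.exp (W z) * Real.exp (-W z)) * (v z * f z) := by rw [h1, one_mul]
    _ = _ := by ring

lemma Qv_add (ha : ∀ i j, S (a i j)) (hf : S f) (hg : S g) (z : E) :
    Qv e a v W (fun w => f w + g w) z = Qv e a v W f z + Qv e a v W g z := by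
  unfold H269.Qv
  rw [Qd_add ha hf hg]
  ring

lemma Qv_smul (ha : ∀ i j, S (a i j)) (c : ℝ) (hf : S f)
    (z : E) : Qv e a v W (fun w => c * f w) z = c * Qv e a v W f z := by
  unfold H269.Qv
  rw [Qd_smul ha c hf]
  ring

lemma Qv_zero : Qv e a v W (fun _ => (0 : ℝ)) = fun _ => 0 := by
  ext z
  unfold H269.Qv
  rw [congrFun Qd_zero z]
  simp

lemma Lv_zero : Lv e a v (fun _ => (0 : ℝ)) = fun _ => 0 := by
  ext z
  unfold H269.Lv
  rw [congrFun Ld_zero z]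
  simp

lemma ts_Qv (f : E → ℝ) : tsupport (Qv e a v W f) ⊆ tsupport f :=
  ts_of (fun h => Qv_congr (EventuallyEq.refl _ _) h) Qv_zero f

lemma ts_Lv (f : E → ℝ) : tsupport (Lv e a v f) ⊆ tsupport f :=
  ts_of (fun h => Lv_congr h) Lv_zero f

lemma cs_Qv (hf : HasCompactSupport f) : HasCompactSupport (Qv e a v W f) := cs_ts hf (ts_Qv f)

lemma cs_Lv (hf : HasCompactSupport f) : HasCompactSupport (Lv e a v f) := cs_ts hf (ts_Lv f)

section

variable {χ : E → ℝ}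

lemma Qv_p4 (ha : ∀ i j, S (a i j)) (hs : ∀ i j z, a i j z = a j i z)
    (hχ : S χ) (hg : S g) (z : E) :
    Qv e a v W (fun z => p4 χ z * g z) z = χ z ^ 4 * Qv e a v W g z + 8 * χ z ^ 3 * Gm e a χ g z
      - 8 * χ z ^ 3 * Gm e a χ W z * g z
      + (4 * χ z ^ 3 * Ld e a χ z + 12 * χ z ^ 2 * Gm e a χ χ z) * g z := by
  unfold H269.Qv
  rw [Qd_p4 ha hs hχ hg]
  unfold p4
  ring

end

variable [FiniteDimensional ℝ E] {U : Set E}

lemma cdo_Qv (hU : IsOpen U) (ha : ∀ i j, S (a i j)) (hv : S v) (hW : ContDiffOn ℝ ∞ W U)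
    (hf : ContDiffOn ℝ ∞ f U) : ContDiffOn ℝ ∞ (Qv e a v W f) U :=
  (cdo_Qd hU ha hW hf).add (hv.contDiffOn.mul hf)

lemma cdo_Lv (hU : IsOpen U) (ha : ∀ i j, S (a i j)) (hv : S v)
    (hf : ContDiffOn ℝ ∞ f U) : ContDiffOn ℝ ∞ (Lv e a v f) U :=
  (cdo_Ld hU ha hf).add (hv.contDiffOn.mul hf)

/-- `e^{-W} Lv (e^W f) = Qv (-W) f` on `U` -/
lemma Pv_eq (hU : IsOpen U) (ha : ∀ i j, S (a i j)) (hs : ∀ i j z, a i j z = a j i z)
    (hW : ContDiffOn ℝ ∞ W U) (hf : ContDiffOn ℝ ∞ f U) {z : E} (hz : z ∈ U) :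
    Qv e a v (fun z => -W z) f z = Real.exp (-W z) * Lv e a v (fun w => Real.exp (W w) * f w) z := by
  unfold H269.Qv H269.Lv
  rw [Pd_eq hU ha hs hW hf hz, mul_add]
  congr 1
  have h1 : Real.exp (-W z) * Real.exp (W z) = 1 := by
    rw [← Real.exp_add]
    simp
  calc v z * f z = (Real.exp (-W z) * Real.exp (W z)) * (v z * f z) := by rw [h1, one_mul]
    _ = _ := by ring

/-- `Qv (-W) (e^{-W} F) = e^{-W} Lv F` on `U` -/
lemma Pv_exp (hU : IsOpen U) (ha : ∀ i j, S (a i j)) (hs : ∀ i j z, a i j z = a j i z)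
    (hW : ContDiffOn ℝ ∞ W U) (hf : ContDiffOn ℝ ∞ f U) {z : E} (hz : z ∈ U) :
    Qv e a v (fun z => -W z) (fun w => Real.exp (-W w) * f w) z
      = Real.exp (-W z) * Lv e a v f z := by
  unfold H269.Qv H269.Lv
  rw [Pd_exp hU ha hs hW hf hz]
  ring

/-- commutation of the conjugated operators -/
lemma Pv_comm (hU : IsOpen U) (h₀ : ∀ i j, S (a₀ i j)) (s₀ : ∀ i j z, a₀ i j z = a₀ j i z)
    (p₀ : S v₀) (h₁ : ∀ i j, S (a₁ i j)) (s₁ : ∀ i j z, a₁ i j z = a₁ j i z) (p₁ : S v₁)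
    (hc : ∀ f, S f → ∀ z, Lv e a₀ v₀ (Lv e a₁ v₁ f) z = Lv e a₁ v₁ (Lv e a₀ v₀ f) z)
    (hW : ContDiffOn ℝ ∞ W U) (hf : ContDiffOn ℝ ∞ f U) {z : E} (hz : z ∈ U) :
    Qv e a₀ v₀ (fun z => -W z) (Qv e a₁ v₁ (fun z => -W z) f) z
      = Qv e a₁ v₁ (fun z => -W z) (Qv e a₀ v₀ (fun z => -W z) f) z := by
  have sF : ContDiffOn ℝ ∞ (fun w => Real.exp (W w) * f w) U := hW.exp.mul hf
  have key : ∀ (b c : J → J → E → ℝ) (p q : E → ℝ), (∀ i j, S (b i j)) →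
      (∀ i j z, b i j z = b j i z) → (∀ i j, S (c i j)) → (∀ i j z, c i j z = c j i z) → S q →
      Qv e b p (fun z => -W z) (Qv e c q (fun z => -W z) f) z
        = Real.exp (-W z) * Lv e b p (Lv e c q (fun w => Real.exp (W w) * f w)) z := by
    intro b c p q hb sb hc sc hq
    have h1 : Qv e c q (fun z => -W z) f =ᶠ[𝓝 z]
        fun z => Real.exp (-W z) * Lv e c q (fun w => Real.exp (W w) * f w) z :=
      ev_of_on hU hz fun w hw => Pv_eq hU hc sc hW hf hw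
    rw [(Qv_congr (e := e) (a := b) (v := p) (EventuallyEq.refl _ _) h1).self_of_nhds]
    exact Pv_exp hU hb sb hW (cdo_Lv hU hc hq sF) hz
  rw [key a₀ a₁ v₀ v₁ h₀ s₀ h₁ s₁ p₁, key a₁ a₀ v₁ v₀ h₁ s₁ h₀ s₀ p₀]
  congr 1
  obtain ⟨F, F1, F2⟩ := ext_at hU hz sF
  have k1 := (Lv_congr (e := e) (a := a₀) (v := v₀) (Lv_congr (e := e) (a := a₁) (v := v₁)
    F2)).self_of_nhds
  have k2 := (Lv_congr (e := e) (a := a₁) (v := v₁) (Lv_congr (e := e) (a := a₀) (v := v₀)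
    F2)).self_of_nhds
  rw [← k1, ← k2]
  exact hc F F1 z

lemma Tt.Qv (hU : IsOpen U) (ha : ∀ i j, S (a i j)) (hv : S v) (hW : ContDiffOn ℝ ∞ W U)
    (hf : Tt U f) : Tt U (Qv e a v W f) :=
  (Tt.Qd hU ha hW hf).add (Tt.mul hU hv.contDiffOn hf)

variable [MeasurableSpace E] [BorelSpace E] {μ : Measure E} [μ.IsAddHaarMeasure]

/-- the adjoint -/
lemma int_Qv (ha : ∀ i j, S (a i j)) (hs : ∀ i j z, a i j z = a j i z) (hv : S v) (hW : S W)
    (hf : S f) (hg : S g) (hc : HasCompactSupport f ∨ HasCompactSupport g) :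
    ∫ z, f z * Qv e a v (fun w => -W w) g z ∂μ = ∫ z, Qv e a v W f z * g z ∂μ := by
  have cf : ∀ {F : E → ℝ}, tsupport F ⊆ tsupport f → tsupport F ⊆ tsupport g →
      HasCompactSupport F := fun h1 h2 => cs_or hc h1 h2
  have J1 : Integrable (fun z => f z * Qd e a (fun w => -W w) g z) μ :=
    S.int (hf.mul (S.Qd ha hW.neg hg)) (cf (ts_mul_left _ _) ((ts_mul_right _ _).trans (ts_Qd g)))
  have J2 : Integrable (fun z => Qd e a W f z * g z) μ :=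
    S.int ((S.Qd ha hW hf).mul hg) (cf ((ts_mul_left _ _).trans (ts_Qd f)) (ts_mul_right _ _))
  have J3 : Integrable (fun z => f z * (v z * g z)) μ :=
    S.int (hf.mul (hv.mul hg)) (cf (ts_mul_left _ _) ((ts_mul_right _ _).trans (ts_mul_right _ _)))
  have e1 : ∫ z, f z * Qv e a v (fun w => -W w) g z ∂μ
      = (∫ z, f z * Qd e a (fun w => -W w) g z ∂μ) + ∫ z, f z * (v z * g z) ∂μ := by
    rw [← integral_add J1 J3]
    congr 1
    ext z
    unfold H269.Qv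
    ring
  have e2 : ∫ z, Qv e a v W f z * g z ∂μ
      = (∫ z, Qd e a W f z * g z ∂μ) + ∫ z, f z * (v z * g z) ∂μ := by
    rw [← integral_add J2 J3]
    congr 1
    ext z
    unfold H269.Qv
    ring
  rw [e1, e2, int_Qd ha hs hW hf hg hc]

/-- the adjoint on `U` -/
lemma adjv_on (hU : IsOpen U) (ha : ∀ i j, S (a i j)) (hs : ∀ i j z, a i j z = a j i z)
    (hv : S v) (hW : ContDiffOn ℝ ∞ W U) (hf : ContDiffOn ℝ ∞ f U) (hg : Tt U g) :
    ∫ z, f z * Qv e a v W g z ∂μ = ∫ z, Qv e a v (fun z => -W z) f z * g z ∂μ := by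
  have J1 : Integrable (fun z => f z * Qd e a W g z) μ := Tt.int (Tt.mul hU hf (Tt.Qd hU ha hW hg))
  have J2 : Integrable (fun z => Qd e a (fun z => -W z) f z * g z) μ :=
    Tt.int (Tt.mul hU (cdo_Qd hU ha hW.neg hf) hg)
  have J3 : Integrable (fun z => f z * (v z * g z)) μ :=
    Tt.int (Tt.mul hU hf (Tt.mul hU hv.contDiffOn hg))
  have e1 : ∫ z, f z * Qv e a v W g z ∂μ
      = (∫ z, f z * Qd e a W g z ∂μ) + ∫ z, f z * (v z * g z) ∂μ := by
    rw [← integral_add J1 J3]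
    congr 1
    ext z
    unfold H269.Qv
    ring
  have e2 : ∫ z, Qv e a v (fun z => -W z) f z * g z ∂μ
      = (∫ z, Qd e a (fun z => -W z) f z * g z ∂μ) + ∫ z, f z * (v z * g z) ∂μ := by
    rw [← integral_add J2 J3]
    congr 1
    ext z
    unfold H269.Qv
    ring
  rw [e1, e2, adj_on hU ha hs hW hf hg]

/-- the adjoint on `U` -/
lemma adjv_on' (hU : IsOpen U) (ha : ∀ i j, S (a i j)) (hs : ∀ i j z, a i j z = a j i z)
    (hv : S v) (hW : ContDiffOn ℝ ∞ W U) (hf : ContDiffOn ℝ ∞ f U) (hg : Tt U g) :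
    ∫ z, f z * Qv e a v (fun z => -W z) g z ∂μ = ∫ z, Qv e a v W f z * g z ∂μ := by
  have := adjv_on (μ := μ) (e := e) hU ha hs hv hW.neg hf hg
  simpa only [neg_neg] using this

end Vale.Agent.P088.R2.H269
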