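import Vale.Agent.P088.R2.H269.X.X8

/-!
# P088, stage 3: doubly harmonic corrections, operators with potentials, final form
-/

open MeasureTheory Set Filter
open scoped ContDiff Matrix Topology

noncomputable section

set_option linter.unusedSectionVars false

namespace Vale.Agent.P088.R2.H269

open Vale.Agent.P088.LR Vale.Agent.P088.HY

variable {n : ℕ}

lemma pot_le {v : V n → ℝ} {ε : ℝ} (hv : ∀ x, v x * (1 + HY.sq x) ≤ ε) (x : V n) :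
    v x ≤ ε * (1 + HY.sq x)⁻¹ := by
  have h0 : 0 < 1 + HY.sq x := by
    have : 0 ≤ HY.sq x := Finset.sum_nonneg fun _ _ => sq_nonneg _
    linarith
  rw [← div_eq_mul_inv, le_div_iff₀ h0]
  exact hv x

lemma Tp.fbX (hn : 3 ≤ n) {B c₀ ε : ℝ} (hc : 0 < c₀) (hε : 0 ≤ ε) {s : MF n} {v : V n → ℝ}
    (h : Tp B c₀ ε s v) : Fb univ (bs n) (aX s) (fun z => v z.1) (4 * ε / c₀) volume := by
  refine fb_of hn (κ := Sum.inl) Sum.inl_injective (sm_aX h.sm) (h.sv.comp contDiff_fst) hε hc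
    (fun z => ?_) fun f z => ?_
  · exact pot_le h.hv z.1
  · have h1 := h.lo z.1 fun i => db (bs n) (Sum.inl i) f z
    unfold Gm
    rw [sum_aX s z fun i => db (bs n) i f z]
    exact h1

lemma Tp.fbY (hn : 3 ≤ n) {B c₀ ε : ℝ} (hc : 0 < c₀) (hε : 0 ≤ ε) {s : MF n} {v : V n → ℝ}
    (h : Tp B c₀ ε s v) : Fb univ (bs n) (aY s) (fun z => v z.2) (4 * ε / c₀) volume := by
  refine fb_of hn (κ := Sum.inr) Sum.inr_injective (sm_aY h.sm) (h.sv.comp contDiff_snd) hε hc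
    (fun z => ?_) fun f z => ?_
  · exact pot_le h.hv z.2
  · have h1 := h.lo z.2 fun i => db (bs n) (Sum.inr i) f z
    unfold Gm
    rw [sum_aY s z fun i => db (bs n) i f z]
    exact h1

/-- (SOL3) on all pairs of points, operators with potentials. -/
theorem solFv (hn : 3 ≤ n) (hyp : RowHYP) {B c₀ ε : ℝ} (hB : 0 ≤ B) (hc₀ : 0 < c₀) (hε : 0 ≤ ε)
    (hεc : 4 * ε < c₀) {s₁ s₂ : MF n} {v₁ v₂ : V n → ℝ} (h₁ : Tp B c₀ ε s₁ v₁)
    (h₂ : Tp B c₀ ε s₂ v₂) {W : VV n → ℝ} (hW : Wt B W) {w o₁ o₂ : VV n → ℝ} (cw : Continuous w)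
    (pw : ∀ z, 0 < w z) (c₁ : Continuous o₁) (p₁ : ∀ z, 0 < o₁ z) (c₂ : Continuous o₂)
    (p₂ : ∀ z, 0 < o₂ z) {C₂ : ℝ} (b₂ : ∀ z, o₂ z ≤ C₂)
    (est : ∀ a₁ a₂ : VV n → ℝ, Tt univ a₁ → Tt univ a₂ →
      ∫ z, w z * (a₁ z ^ 2 + a₂ z ^ 2) ≤ ∫ z, (o₁ z * (QXv s₁ v₁ W a₁ z + QYv s₂ v₂ W a₂ z) ^ 2
        + o₂ z * (PYv s₂ v₂ W a₁ z - PXv s₁ v₁ W a₂ z) ^ 2))
    {F₁ F₂ : VV n → ℝ} (hF₁ : S F₁) (hF₂ : S F₂)
    (comp : ∀ z, DYv s₂ v₂ F₁ z = DXv s₁ v₁ F₂ z)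
    (hF : Integrable (fun z => Real.exp (-(2 * W z)) * (F₁ z ^ 2 + F₂ z ^ 2) / w z)) :
    ∃ v : VV n → ℝ, S v ∧ (∀ z, DXv s₁ v₁ v z = F₁ z) ∧ (∀ z, DYv s₂ v₂ v z = F₂ z) ∧
      Integrable (fun z => Real.exp (-(2 * W z)) * v z ^ 2 / o₁ z) ∧
      ∫ z, Real.exp (-(2 * W z)) * v z ^ 2 / o₁ z
        ≤ ∫ z, Real.exp (-(2 * W z)) * (F₁ z ^ 2 + F₂ z ^ 2) / w z := by
  have n0 : NeZero n := ⟨by omega⟩
  have t₁ := h₁.tn hc₀
  have t₂ := h₂.tn hc₀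
  have hex : ∃ C, Ex univ (bs n) (aa s₁ s₂) W C := by
    refine ex_univ hB (fun k i j => ?_) (fun k i j z => ?_) (fun k i j z => ?_) hW.sm hW.lo
      (fun k z => ?_) fun k l z => ?_
    · fin_cases k
      · exact sm_aX h₁.sm i j
      · exact sm_aY h₂.sm i j
    · fin_cases k
      · exact t₁.bX hB i j z
      · exact t₂.bY hB i j z
    · fin_cases k
      · exact t₁.dX hB i j z
      · exact t₂.dY hB i j z
    · rcases k with k | k
      · rw [db_inl]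
        exact hW.x1 k z
      · rw [db_inr]
        exact hW.y1 k z
    · rcases k with k | k <;> rcases l with l | l
      · rw [db_inl, db_inl]
        exact hW.xx k l z
      · rw [db_inl, db_inr]
        exact hW.xy k l z
      · rw [db_inr, db_inl, ← dx_dy' hW.sm l k]
        exact hW.xy l k z
      · rw [db_inr, db_inr]
        exact hW.yy k l z
  obtain ⟨C, hex⟩ := hex
  have hC : 0 ≤ C := by
    obtain ⟨χ, ψ, m, -, -, -, -, -, -, -, -, h1, h2, -⟩ := hex ∅ isCompact_empty (empty_subset _)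
    exact h1.trans h2
  have hexv := hex.v (v := vv v₁ v₂) hC (B := B) (fun k z => by
    fin_cases k
    · exact h₁.bv z.1
    · exact h₂.bv z.2) hB
  set M2 : ℝ := ∫ z, Real.exp (-(2 * W z)) * (F₁ z ^ 2 + F₂ z ^ 2) / w z with hM2
  have hM20 : 0 ≤ M2 := integral_nonneg fun z => div_nonneg (mul_nonneg (Real.exp_pos _).le
    (by positivity)) (pw z).le
  have eG : ∀ z, ((Real.exp (-W z) * F₁ z) ^ 2 + (Real.exp (-W z) * F₂ z) ^ 2) / w z
      = Real.exp (-(2 * W z)) * (F₁ z ^ 2 + F₂ z ^ 2) / w z := by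
    intro z
    rw [mul_pow, mul_pow, ← mul_add, ← Real.exp_nat_mul]
    congr 3
    push_cast
    ring
  have hθ : 4 * ε / c₀ < 1 := by
    rw [div_lt_one hc₀]
    exact hεc
  have res := solv3 (μ := (volume : Measure (VV n))) hyp isOpen_univ isPreconnected_univ (bs n)
    (a := aa s₁ s₂) (v := vv v₁ v₂) (fun k i j => by
      fin_cases k
      · exact sm_aX h₁.sm i j
      · exact sm_aY h₂.sm i j)
    (fun k i j z => by
      fin_cases k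
      · exact sy_aX h₁.sy i j z
      · exact sy_aY h₂.sy i j z)
    (fun k => by
      fin_cases k
      · exact h₁.sv.comp contDiff_fst
      · exact h₂.sv.comp contDiff_snd)
    (fun k => by
      fin_cases k
      · exact pos_aX t₁.pos
      · exact pos_aY t₂.pos)
    hθ
    (fun k => by
      fin_cases k
      · exact h₁.fbX hn hc₀ hε
      · exact h₂.fbY hn hc₀ hε)
    (fun z _ ξ hξ => ell_aa t₁.pos t₂.pos z ξ hξ)
    (fun f hf z => by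
      rw [aa0, aa1, vv0, vv1, Lv_aY, Lv_aX, Lv_aX, Lv_aY]
      exact DXv_DYv h₁.sm h₂.sm h₁.sv h₂.sv hf z)
    (contDiffOn_univ.2 hW.sm) hexv (not_int hW.lo) c₁.continuousOn c₂.continuousOn
    (fun z _ => p₁ z) (fun z _ => p₂ z) (fun z _ => b₂ z) (contDiffOn_univ.2 hF₁)
    (contDiffOn_univ.2 hF₂) (fun z _ => by
      rw [aa0, aa1, vv0, vv1, Lv_aY, Lv_aX]
      exact comp z)
    (M := √M2) (Real.sqrt_nonneg _) (fun a₁ a₂ t₁ t₂ => by
      rw [Real.sq_sqrt hM20, aa0, aa1, vv0, vv1, ← QXv_eq, ← QYv_eq, ← PYv_eq h₂.sm v₂ hW.sm,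
        ← PXv_eq h₁.sm v₁ hW.sm]
      have sE : Continuous (fun z => Real.exp (-W z)) := (hW.sm.neg.exp).continuous
      have cs := cs_int (w := w) (G₁ := fun z => Real.exp (-W z) * F₁ z)
        (G₂ := fun z => Real.exp (-W z) * F₂ z) cw pw (sE.mul hF₁.continuous)
        (sE.mul hF₂.continuous) (by
          simp only [eG]
          exact hF) t₁ t₂
      simp only [eG] at cs
      have e1 : ∫ z, Real.exp (-W z) * (F₁ z * a₁ z + F₂ z * a₂ z)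
          = ∫ z, (Real.exp (-W z) * F₁ z * a₁ z + Real.exp (-W z) * F₂ z * a₂ z) := by
        congr 1
        ext z
        ring
      rw [e1, setIntegral_univ]
      exact cs.trans (mul_le_mul_of_nonneg_left (est a₁ a₂ t₁ t₂) hM20))
  obtain ⟨v, r1, r2, r3, r4, r5⟩ := res
  refine ⟨v, contDiffOn_univ.1 r1, fun z => ?_, fun z => ?_, integrableOn_univ.1 r4, ?_⟩
  · have := r2 z (mem_univ z)
    rwa [aa0, vv0, Lv_aX] at this
  · have := r3 z (mem_univ z)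
    rwa [aa1, vv1, Lv_aY] at this
  · rw [setIntegral_univ, Real.sq_sqrt hM20] at r5
    exact r5

/-- (SOL3) doubly harmonic corrections of test functions, operators with potentials. -/
theorem solKv (hn : 3 ≤ n) (hyp : RowHYP) {B c₀ ε : ℝ} (hB : 0 ≤ B) (hc₀ : 0 < c₀) (hε : 0 ≤ ε)
    (hεc : 4 * ε < c₀) {s₁ s₂ : MF n} {v₁ v₂ : V n → ℝ} (h₁ : Tp B c₀ ε s₁ v₁)
    (h₂ : Tp B c₀ ε s₂ v₂) {W : VV n → ℝ} (hW : Wt B W) {w o₁ o₂ : VV n → ℝ} (cw : Continuous w)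
    (pw : ∀ z, 0 < w z) (c₁ : Continuous o₁) (p₁ : ∀ z, 0 < o₁ z) (c₂ : Continuous o₂)
    (p₂ : ∀ z, 0 < o₂ z) {C₂ : ℝ} (b₂ : ∀ z, o₂ z ≤ C₂)
    (est : ∀ a₁ a₂ : VV n → ℝ, Tt univ a₁ → Tt univ a₂ →
      ∫ z, w z * (a₁ z ^ 2 + a₂ z ^ 2) ≤ ∫ z, (o₁ z * (QXv s₁ v₁ W a₁ z + QYv s₂ v₂ W a₂ z) ^ 2
        + o₂ z * (PYv s₂ v₂ W a₁ z - PXv s₁ v₁ W a₂ z) ^ 2))
    {K₀ : VV n → ℝ} (hK : S K₀) (hc : HasCompactSupport K₀) :
    ∃ K₁ : VV n → ℝ, S K₁ ∧ (∀ z, DXv s₁ v₁ K₁ z = DXv s₁ v₁ K₀ z) ∧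
      (∀ z, DYv s₂ v₂ K₁ z = DYv s₂ v₂ K₀ z) ∧
      Integrable (fun z => Real.exp (-(2 * W z)) * K₁ z ^ 2 / o₁ z) ∧
      ∫ z, Real.exp (-(2 * W z)) * K₁ z ^ 2 / o₁ z
        ≤ ∫ z, Real.exp (-(2 * W z)) * (DXv s₁ v₁ K₀ z ^ 2 + DYv s₂ v₂ K₀ z ^ 2) / w z := by
  have q1 : S (fun w : VV n => v₁ w.1) := h₁.sv.comp contDiff_fst
  have q2 : S (fun w : VV n => v₂ w.2) := h₂.sv.comp contDiff_snd
  have sX : S (DXv s₁ v₁ K₀) := by
    rw [← Lv_aX]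
    exact S.Lv (sm_aX h₁.sm) q1 hK
  have sY : S (DYv s₂ v₂ K₀) := by
    rw [← Lv_aY]
    exact S.Lv (sm_aY h₂.sm) q2 hK
  have cX : HasCompactSupport (DXv s₁ v₁ K₀) := by
    rw [← Lv_aX]
    exact cs_Lv hc
  have cY : HasCompactSupport (DYv s₂ v₂ K₀) := by
    rw [← Lv_aY]
    exact cs_Lv hc
  refine solFv hn hyp hB hc₀ hε hεc h₁ h₂ hW cw pw c₁ p₁ c₂ p₂ b₂ est sX sY (fun z => ?_) ?_
  · exact (DXv_DYv h₁.sm h₂.sm h₁.sv h₂.sv hK z).symm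
  · have k1 : Continuous (fun z => Real.exp (-(2 * W z)) * (DXv s₁ v₁ K₀ z ^ 2
        + DYv s₂ v₂ K₀ z ^ 2) / w z) := by
      refine Continuous.div ?_ cw fun z => (pw z).ne'
      exact ((contDiff_const.mul hW.sm).neg.exp.continuous).mul
        ((sX.continuous.pow 2).add (sY.continuous.pow 2))
    refine k1.integrable_of_hasCompactSupport ?_
    have c1 : HasCompactSupport (fun z => DXv s₁ v₁ K₀ z ^ 2 + DYv s₂ v₂ K₀ z ^ 2) := by
      have a1 := cs_mul_right (g := DXv s₁ v₁ K₀) cX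
      have a2 := cs_mul_right (g := DYv s₂ v₂ K₀) cY
      have := cs_add a1 a2
      simpa only [pow_two] using this
    have e1 : (fun z => Real.exp (-(2 * W z)) * (DXv s₁ v₁ K₀ z ^ 2 + DYv s₂ v₂ K₀ z ^ 2) / w z)
        = fun z => (Real.exp (-(2 * W z)) / w z) * (DXv s₁ v₁ K₀ z ^ 2 + DYv s₂ v₂ K₀ z ^ 2) := by
      ext z
      ring
    rw [e1]
    exact cs_mul_left c1

end Vale.Agent.P088.R2.H269
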