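import Vale.Agent.P088.R2.H437.P2A
import Vale.Agent.P088.R2.H269.X.X9

/-!
# P088, stage 3: the change of variables by the inversion in both variables
-/

open MeasureTheory Set Filter
open scoped ContDiff Matrix Topology

noncomputable section

set_option linter.unusedSectionVars false

namespace Vale.Agent.P088.R2.H269

open Vale.Agent.P088.LR Vale.Agent.P088.HY Vale.Agent.P088.HY.T3 Vale.Agent.P088.HY.H437.Kel

variable {n : ℕ}

/-- the inversion in both variables -/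
def i2 (z : VV n) : VV n := (iv z.1, iv z.2)

/-- both components do not vanish -/
def Nz (z : VV n) : Prop := z.1 ≠ 0 ∧ z.2 ≠ 0

lemma i2_i2 {z : VV n} (h : Nz z) : i2 (i2 z) = z := by
  unfold i2
  simp only
  rw [iv_iv h.1, iv_iv h.2]

lemma Nz.i2 {z : VV n} (h : Nz z) : Nz (i2 z) := ⟨iv_ne h.1, iv_ne h.2⟩

lemma cd_i2 {z : VV n} (h : Nz z) : ContDiffAt ℝ ∞ (i2 : VV n → VV n) z :=
  ((cd_iv h.1).comp z contDiffAt_fst).prodMk ((cd_iv h.2).comp z contDiffAt_snd)

lemma hd_i2 {z : VV n} (h : Nz z) : HasFDerivAt (i2 : VV n → VV n)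
    (((fderiv ℝ (iv : V n → V n) z.1).comp (ContinuousLinearMap.fst ℝ (V n) (V n))).prod
      ((fderiv ℝ (iv : V n → V n) z.2).comp (ContinuousLinearMap.snd ℝ (V n) (V n)))) z :=
  ((da_iv h.1).hasFDerivAt.comp z hasFDerivAt_fst).prodMk
    ((da_iv h.2).hasFDerivAt.comp z hasFDerivAt_snd)

/-- A bound of the Jacobian determinant. -/
theorem det_i2 {z : VV n} (h : Nz z) {r : ℝ} (h1 : (HY.sq z.1)⁻¹ ≤ r) (h2 : (HY.sq z.2)⁻¹ ≤ r) :
    |(fderiv ℝ (i2 : VV n → VV n) z).det| ≤ ((n + n).factorial : ℝ) * (3 * r) ^ (n + n) := by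
  classical
  have r0 : 0 ≤ r := (inv_pos.2 (sq_pos h.1)).le.trans h1
  set L : VV n →ₗ[ℝ] VV n := (fderiv ℝ (i2 : VV n → VV n) z : VV n →ₗ[ℝ] VV n) with hL
  have e1 : (fderiv ℝ (i2 : VV n → VV n) z).det = (LinearMap.toMatrix (bs n) (bs n) L).det := by
    rw [LinearMap.det_toMatrix]
  rw [e1]
  have ent : ∀ k i, |LinearMap.toMatrix (bs n) (bs n) L k i| ≤ 3 * r := by
    intro k i
    rw [LinearMap.toMatrix_apply, hL, (hd_i2 h).fderiv]
    have bound : ∀ (x : V n), x ≠ 0 → (HY.sq x)⁻¹ ≤ r → ∀ i k,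
        |fderiv ℝ (iv : V n → V n) x (Pi.single i 1) k| ≤ 3 * r := by
      intro x hx hr i k
      rw [fd_iv hx i k, abs_mul, abs_of_pos (inv_pos.2 (sq_pos hx))]
      exact mul_le_mul (rf_le hx i k) hr (inv_pos.2 (sq_pos hx)).le (by norm_num)
    have z0 : (0 : ℝ) ≤ 3 * r := by positivity
    rcases i with i | i <;> rcases k with k | k
    · rw [bs_inl]
      simp only [bs, Module.Basis.prod_repr_inl, Pi.basisFun_repr]
      exact bound z.1 h.1 h1 i k
    · rw [bs_inl]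
      simp only [bs, Module.Basis.prod_repr_inr, Pi.basisFun_repr]
      simpa using z0
    · rw [bs_inr]
      simp only [bs, Module.Basis.prod_repr_inl, Pi.basisFun_repr]
      simpa using z0
    · rw [bs_inr]
      simp only [bs, Module.Basis.prod_repr_inr, Pi.basisFun_repr]
      exact bound z.2 h.2 h2 i k
  have h3 := Matrix.det_le (abv := AbsoluteValue.abs) (x := 3 * r)
    (A := LinearMap.toMatrix (bs n) (bs n) L) ent
  rw [Fintype.card_sum, Fintype.card_fin, nsmul_eq_mul] at h3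
  exact h3

theorem cont_det2 {U : Set (VV n)} (h0 : ∀ z ∈ U, Nz z) :
    ContinuousOn (fun z => (fderiv ℝ (i2 : VV n → VV n) z).det) U := by
  intro z hz
  have h1 : ContDiffAt ℝ 0 (fderiv ℝ (i2 : VV n → VV n)) z :=
    (cd_i2 (h0 z hz)).fderiv_right (m := 0) (by simp)
  have h2 : ContinuousAt (fderiv ℝ (i2 : VV n → VV n)) z := h1.continuousAt
  exact (ContinuousLinearMap.continuous_det.continuousAt.comp h2).continuousWithinAt

theorem i2_inj {U : Set (VV n)} (h0 : ∀ z ∈ U, Nz z) : InjOn (i2 : VV n → VV n) U := by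
  intro z hz w hw hzw
  rw [← i2_i2 (h0 z hz), hzw, i2_i2 (h0 w hw)]

/-- **Change of variables, one-sided.** -/
theorem cov2 {U : Set (VV n)} (hU : IsOpen U) (h0 : ∀ z ∈ U, Nz z) {r : ℝ}
    (hr : ∀ z ∈ U, (HY.sq z.1)⁻¹ ≤ r ∧ (HY.sq z.2)⁻¹ ≤ r) {g h : VV n → ℝ}
    (hg : ContinuousOn g (i2 '' U))
    (hg0 : ∀ z ∈ U, 0 ≤ g (i2 z)) (hh : IntegrableOn h U) {A : ℝ}
    (hA : ∀ z ∈ U, g (i2 z) ≤ A * h z) :
    IntegrableOn g (i2 '' U) ∧
      ∫ x in i2 '' U, g x ≤ ((n + n).factorial : ℝ) * (3 * r) ^ (n + n) * A * ∫ y in U, h y := by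
  have hd : ∀ x ∈ U, HasFDerivWithinAt (i2 : VV n → VV n) (fderiv ℝ (i2 : VV n → VV n) x) U x :=
    fun x hx => (hd_i2 (h0 x hx)).differentiableAt.hasFDerivAt.hasFDerivWithinAt
  have hc : ContinuousOn (fun y => |(fderiv ℝ (i2 : VV n → VV n) y).det| • g (i2 y)) U :=
    ((cont_det2 h0).abs).smul (hg.comp (fun y hy => (cd_i2 (h0 y hy)).continuousAt.continuousWithinAt)
      (mapsTo_image _ _))
  have hb : ∀ y ∈ U, |(fderiv ℝ (i2 : VV n → VV n) y).det| • g (i2 y) ≤
      ((n + n).factorial : ℝ) * (3 * r) ^ (n + n) * A * h y := by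
    intro y hy
    have h1 := det_i2 (h0 y hy) (hr y hy).1 (hr y hy).2
    rw [smul_eq_mul, mul_assoc (((n + n).factorial : ℝ) * (3 * r) ^ (n + n))]
    exact mul_le_mul h1 (hA y hy) (hg0 y hy) ((abs_nonneg _).trans h1)
  have hi : IntegrableOn (fun y => |(fderiv ℝ (i2 : VV n → VV n) y).det| • g (i2 y)) U := by
    refine Integrable.mono' (hh.const_mul (((n + n).factorial : ℝ) * (3 * r) ^ (n + n) * A))
      (hc.aestronglyMeasurable hU.measurableSet) ?_
    filter_upwards [ae_restrict_mem hU.measurableSet] with y hy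
    rw [Real.norm_eq_abs, abs_of_nonneg]
    · exact hb y hy
    · rw [smul_eq_mul]
      exact mul_nonneg (abs_nonneg _) (hg0 y hy)
  constructor
  · exact (integrableOn_image_iff_integrableOn_abs_det_fderiv_smul volume hU.measurableSet hd
      (i2_inj h0) g).2 hi
  · rw [integral_image_eq_integral_abs_det_fderiv_smul volume hU.measurableSet hd (i2_inj h0) g,
      ← integral_const_mul]
    exact setIntegral_mono_on hi (hh.const_mul _) hU.measurableSet hb

end Vale.Agent.P088.R2.H269
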