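import Vale.Agent.P088.R2.H269.X.X10

/-!
# P088, stage 3: the Kelvin transform in both variables
-/

open MeasureTheory Set Filter
open scoped ContDiff Matrix Topology

noncomputable section

set_option linter.unusedSectionVars false

namespace Vale.Agent.P088.R2.H269

open Vale.Agent.P088.LR Vale.Agent.P088.HY Vale.Agent.P088.HY.T3 Vale.Agent.P088.HY.H437.Kel

variable {n : ℕ}

lemma dx_sl {F : VV n → ℝ} {z : VV n} (hF : DifferentiableAt ℝ F z) (i : Fin n) :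
    HY.dx i F z = pd i (fun x => F (x, z.2)) z.1 := by
  unfold HY.dx pd
  have h1 : HasFDerivAt (fun x : V n => (x, z.2)) (ContinuousLinearMap.inl ℝ (V n) (V n)) z.1 :=
    (hasFDerivAt_id z.1).prodMk (hasFDerivAt_const z.2 z.1)
  have h2 : HasFDerivAt (fun x => F (x, z.2))
      ((fderiv ℝ F z).comp (ContinuousLinearMap.inl ℝ (V n) (V n))) z.1 :=
    HasFDerivAt.comp (g := F) z.1 hF.hasFDerivAt h1
  rw [h2.fderiv]
  simp

lemma dy_sl {F : VV n → ℝ} {z : VV n} (hF : DifferentiableAt ℝ F z) (i : Fin n) :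
    HY.dy i F z = pd i (fun y => F (z.1, y)) z.2 := by
  unfold HY.dy pd
  have h1 : HasFDerivAt (fun y : V n => (z.1, y)) (ContinuousLinearMap.inr ℝ (V n) (V n)) z.2 :=
    (hasFDerivAt_const z.1 z.2).prodMk (hasFDerivAt_id z.2)
  have h2 : HasFDerivAt (fun y => F (z.1, y))
      ((fderiv ℝ F z).comp (ContinuousLinearMap.inr ℝ (V n) (V n))) z.2 :=
    HasFDerivAt.comp (g := F) z.2 hF.hasFDerivAt h1
  rw [h2.fderiv]
  simp

lemma Ldv_ev {s t : MF n} {f g : V n → ℝ} {x : V n} (hf : f =ᶠ[𝓝 x] g)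
    (hs : ∀ᶠ y in 𝓝 x, s y = t y) : Ldv s f x = Ldv t g x := by
  unfold Ldv
  refine Finset.sum_congr rfl fun i _ => pd_ev ?_ i
  have h2 : ∀ᶠ y in 𝓝 x, f =ᶠ[𝓝 y] g := hf.eventually_nhds
  filter_upwards [h2, hs] with y k1 k2
  rw [k2]
  exact Finset.sum_congr rfl fun j _ => by rw [pd_ev k1 j]

lemma DX_sl {s : MF n} (hs : SmM s) {f : VV n → ℝ} {U : Set (VV n)} (hU : IsOpen U)
    (hf : ContDiffOn ℝ ∞ f U) {z : VV n} (hz : z ∈ U) :
    DX s f z = Ldv s (fun x => f (x, z.2)) z.1 := by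
  obtain ⟨f', f1, f2⟩ := ext_at hU hz hf
  have sc : ∀ i j, S (fun w : VV n => s w.1 i j) := fun i j => (hs i j).comp contDiff_fst
  have e1 : DX s f z = DX s f' z := by
    rw [← Ld_aX, ← Ld_aX]
    exact (Ld_congr f2).self_of_nhds.symm
  have tn : Tendsto (fun x : V n => (x, z.2)) (𝓝 z.1) (𝓝 z) := by
    have : ContinuousAt (fun x : V n => (x, z.2)) z.1 := by fun_prop
    exact this
  have e2 : Ldv s (fun x => f (x, z.2)) z.1 = Ldv s (fun x => f' (x, z.2)) z.1 := by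
    refine Ldv_ev ?_ (Eventually.of_forall fun _ => rfl)
    filter_upwards [tn.eventually f2] with x hx
    exact hx.symm
  rw [e1, e2]
  unfold DX Ldv
  refine Finset.sum_congr rfl fun i _ => ?_
  have d1 : ∀ j, DifferentiableAt ℝ (fun x => s x i j * pd j (fun x => f' (x, z.2)) x) z.1 := by
    intro j
    have g1 : ContDiff ℝ ∞ (fun x : V n => f' (x, z.2)) := f1.comp (contDiff_id.prodMk contDiff_const)
    have g2 : ContDiff ℝ ∞ (fun x : V n => pd j (fun x => f' (x, z.2)) x) :=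
      (g1.fderiv_right (m := ∞) (by simp)).clm_apply contDiff_const
    exact ((hs i j).mul g2).differentiable (by simp) _
  rw [H437.Kel.pd_sum (f := fun j x => s x i j * pd j (fun x => f' (x, z.2)) x) fun j _ => d1 j]
  refine Finset.sum_congr rfl fun j _ => ?_
  rw [dx_sl (S.df ((sc i j).mul (f1.dx j)) z) i]
  congr 1
  ext x
  rw [dx_sl (f1.df _) j]

lemma DY_sl {s : MF n} (hs : SmM s) {f : VV n → ℝ} {U : Set (VV n)} (hU : IsOpen U)
    (hf : ContDiffOn ℝ ∞ f U) {z : VV n} (hz : z ∈ U) :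
    DY s f z = Ldv s (fun y => f (z.1, y)) z.2 := by
  obtain ⟨f', f1, f2⟩ := ext_at hU hz hf
  have sc : ∀ i j, S (fun w : VV n => s w.2 i j) := fun i j => (hs i j).comp contDiff_snd
  have e1 : DY s f z = DY s f' z := by
    rw [← Ld_aY, ← Ld_aY]
    exact (Ld_congr f2).self_of_nhds.symm
  have tn : Tendsto (fun y : V n => (z.1, y)) (𝓝 z.2) (𝓝 z) := by
    have : ContinuousAt (fun y : V n => (z.1, y)) z.2 := by fun_prop
    exact this
  have e2 : Ldv s (fun y => f (z.1, y)) z.2 = Ldv s (fun y => f' (z.1, y)) z.2 := by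
    refine Ldv_ev ?_ (Eventually.of_forall fun _ => rfl)
    filter_upwards [tn.eventually f2] with x hx
    exact hx.symm
  rw [e1, e2]
  unfold DY Ldv
  refine Finset.sum_congr rfl fun i _ => ?_
  have d1 : ∀ j, DifferentiableAt ℝ (fun x => s x i j * pd j (fun x => f' (z.1, x)) x) z.2 := by
    intro j
    have g1 : ContDiff ℝ ∞ (fun x : V n => f' (z.1, x)) := f1.comp (contDiff_const.prodMk contDiff_id)
    have g2 : ContDiff ℝ ∞ (fun x : V n => pd j (fun x => f' (z.1, x)) x) :=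
      (g1.fderiv_right (m := ∞) (by simp)).clm_apply contDiff_const
    exact ((hs i j).mul g2).differentiable (by simp) _
  rw [H437.Kel.pd_sum (f := fun j x => s x i j * pd j (fun x => f' (z.1, x)) x) fun j _ => d1 j]
  refine Finset.sum_congr rfl fun j _ => ?_
  rw [dy_sl (S.df ((sc i j).mul (f1.dy j)) z) i]
  congr 1
  ext x
  rw [dy_sl (f1.df _) j]

/-- The Kelvin transform in both variables. -/
def Kel (k : VV n → ℝ) (z : VV n) : ℝ := nw n z.1 * (nw n z.2 * k (i2 z))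

lemma Kel_Kel (k : VV n → ℝ) {z : VV n} (h : Nz z) : Kel (Kel k) z = k z := by
  unfold Kel
  rw [i2_i2 h]
  have h1 : nw n (i2 z).1 = (nw n z.1)⁻¹ := nw_iv h.1
  have h2 : nw n (i2 z).2 = (nw n z.2)⁻¹ := nw_iv h.2
  have h3 := (nw_pos h.1).ne'
  have h4 := (nw_pos h.2).ne'
  rw [h1, h2]
  field_simp

lemma isOpen_Nz : IsOpen {z : VV n | Nz z} :=
  (isOpen_ne.preimage continuous_fst).inter (isOpen_ne.preimage continuous_snd)

/-- the preimage under the inversion -/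
def pre (U : Set (VV n)) : Set (VV n) := {z | Nz z ∧ i2 z ∈ U}

lemma isOpen_pre {U : Set (VV n)} (hU : IsOpen U) : IsOpen (pre U) := by
  have h1 : (pre U : Set (VV n)) = {z | Nz z} ∩ i2 ⁻¹' U := rfl
  rw [h1]
  exact ContinuousOn.isOpen_inter_preimage
    (fun z hz => (cd_i2 hz).continuousAt.continuousWithinAt) isOpen_Nz hU

lemma mem_pre_i2 {U : Set (VV n)} {w : VV n} (h : Nz w) (hw : w ∈ U) : i2 w ∈ pre U :=
  ⟨h.i2, by rw [i2_i2 h]; exact hw⟩

lemma cd_Kel {k : VV n → ℝ} {U : Set (VV n)} (hU : IsOpen U)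
    (hk : ContDiffOn ℝ ∞ k U) {z : VV n} (hz : z ∈ pre U) : ContDiffAt ℝ ∞ (Kel k) z := by
  have h1 : ContDiffAt ℝ ∞ (fun z : VV n => nw n z.1) z := (cd_nw hz.1.1).comp z contDiffAt_fst
  have h2 : ContDiffAt ℝ ∞ (fun z : VV n => nw n z.2) z := (cd_nw hz.1.2).comp z contDiffAt_snd
  have h3 : ContDiffAt ℝ ∞ (fun z : VV n => k (i2 z)) z :=
    (hk.contDiffAt (hU.mem_nhds hz.2)).comp z (cd_i2 hz.1)
  exact h1.mul (h2.mul h3)

lemma cdo_Kel {k : VV n → ℝ} {U : Set (VV n)} (hU : IsOpen U)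
    (hk : ContDiffOn ℝ ∞ k U) : ContDiffOn ℝ ∞ (Kel k) (pre U) := fun _ hz =>
  (cd_Kel hU hk hz).contDiffWithinAt

lemma DX_sm {s : MF n} (hs : SmM s) {f : VV n → ℝ} {U : Set (VV n)} (hU : IsOpen U)
    (hf : ContDiffOn ℝ ∞ f U) {z : VV n} (hz : z ∈ U) (c : ℝ) :
    DX s (fun w => c * f w) z = c * DX s f z := by
  obtain ⟨f', f1, f2⟩ := ext_at hU hz hf
  have h1 := Ld_smul (e := bs n) (sm_aX hs) c f1 z
  have h2 : (fun w => c * f' w) =ᶠ[𝓝 z] fun w => c * f w := by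
    filter_upwards [f2] with w hw
    rw [hw]
  rw [(Ld_congr (e := bs n) (a := aX s) h2).self_of_nhds,
    (Ld_congr (e := bs n) (a := aX s) f2).self_of_nhds, Ld_aX, Ld_aX] at h1
  exact h1

lemma DY_sm {s : MF n} (hs : SmM s) {f : VV n → ℝ} {U : Set (VV n)} (hU : IsOpen U)
    (hf : ContDiffOn ℝ ∞ f U) {z : VV n} (hz : z ∈ U) (c : ℝ) :
    DY s (fun w => c * f w) z = c * DY s f z := by
  obtain ⟨f', f1, f2⟩ := ext_at hU hz hf
  have h1 := Ld_smul (e := bs n) (sm_aY hs) c f1 z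
  have h2 : (fun w => c * f' w) =ᶠ[𝓝 z] fun w => c * f w := by
    filter_upwards [f2] with w hw
    rw [hw]
  rw [(Ld_congr (e := bs n) (a := aY s) h2).self_of_nhds,
    (Ld_congr (e := bs n) (a := aY s) f2).self_of_nhds, Ld_aY, Ld_aY] at h1
  exact h1

/-- The Kelvin transform and the operator in the first variable. -/
theorem kelX (hn : 3 ≤ n) {s t : MF n} (hs : SmM s) (hy : ∀ x, (s x).IsSymm) (ht : SmM t)
    {v : V n → ℝ} {O : Set (V n)} (hO : IsOpen O) (he : ∀ y ∈ O, t y = ks s y ∧ v y = kv s y)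
    {k : VV n → ℝ} {U : Set (VV n)} (hU : IsOpen U) (h0 : ∀ z ∈ U, Nz z)
    (hk : ContDiffOn ℝ ∞ k U) {w : VV n} (hw : w ∈ U) (hwO : w.1 ∈ O) :
    DX s (Kel k) (i2 w) = (nw n w.1)⁻¹ * (nw n w.2)⁻¹ * HY.sq w.1 ^ 2 * DXv t v k w := by
  have nzw := h0 w hw
  have c0 : nw n (iv w.2) = (nw n w.2)⁻¹ := nw_iv nzw.2
  rw [DX_sl hs (isOpen_pre hU) (cdo_Kel hU hk) (mem_pre_i2 nzw hw)]
  set u : V n → ℝ := fun y => (nw n w.2)⁻¹ * k (y, w.2) with hu
  have e1 : (fun x => Kel k (x, (i2 w).2)) = fun x => nw n x * u (iv x) := by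
    ext x
    have h1 : i2 (x, (i2 w).2) = (iv x, w.2) := by
      unfold i2
      simp only
      rw [iv_iv nzw.2]
    unfold Kel
    rw [h1]
    have h2 : nw n (x, (i2 w).2).2 = (nw n w.2)⁻¹ := c0
    rw [h2]
  have hu2 : (fun x : V n => Kel k (x, (i2 w).2)) = fun x => nw n x * u (iv x) := e1
  rw [hu2]
  have hU1 : IsOpen {y : V n | (y, w.2) ∈ U} :=
    hU.preimage (by fun_prop : Continuous fun y : V n => (y, w.2))
  have su : ContDiffOn ℝ ∞ u {y : V n | (y, w.2) ∈ U} := by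
    refine contDiffOn_const.mul ?_
    exact hk.comp (contDiff_id.prodMk contDiff_const).contDiffOn fun y hy => hy
  have key := kel_id hn hs hy hU1 (fun y hy => (h0 _ hy).1) su (y := w.1) hw
  have e2 : (i2 w).1 = iv w.1 := rfl
  rw [e2, key]
  have sk2 : ContDiffOn ℝ ∞ (fun z => (nw n w.2)⁻¹ * k z) U := contDiffOn_const.mul hk
  have e3 : Ldv (ks s) u w.1 = (nw n w.2)⁻¹ * DX t k w := by
    have h1 : Ldv (ks s) u w.1 = Ldv t u w.1 := by
      refine Ldv_ev (EventuallyEq.refl _ _) ?_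
      filter_upwards [hO.mem_nhds hwO] with y hy
      exact (he y hy).1.symm
    rw [h1, ← DX_sm ht hU hk hw, DX_sl ht hU sk2 hw]
  have e4 : u w.1 = (nw n w.2)⁻¹ * k w := rfl
  rw [e3, e4, ← (he w.1 hwO).2]
  unfold DXv
  ring

/-- The Kelvin transform and the operator in the second variable. -/
theorem kelY (hn : 3 ≤ n) {s t : MF n} (hs : SmM s) (hy : ∀ x, (s x).IsSymm) (ht : SmM t)
    {v : V n → ℝ} {O : Set (V n)} (hO : IsOpen O) (he : ∀ y ∈ O, t y = ks s y ∧ v y = kv s y)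
    {k : VV n → ℝ} {U : Set (VV n)} (hU : IsOpen U) (h0 : ∀ z ∈ U, Nz z)
    (hk : ContDiffOn ℝ ∞ k U) {w : VV n} (hw : w ∈ U) (hwO : w.2 ∈ O) :
    DY s (Kel k) (i2 w) = (nw n w.1)⁻¹ * (nw n w.2)⁻¹ * HY.sq w.2 ^ 2 * DYv t v k w := by
  have nzw := h0 w hw
  have c0 : nw n (iv w.1) = (nw n w.1)⁻¹ := nw_iv nzw.1
  rw [DY_sl hs (isOpen_pre hU) (cdo_Kel hU hk) (mem_pre_i2 nzw hw)]
  set u : V n → ℝ := fun y => (nw n w.1)⁻¹ * k (w.1, y) with hu
  have hu2 : (fun x : V n => Kel k ((i2 w).1, x)) = fun x => nw n x * u (iv x) := by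
    ext x
    have h1 : i2 ((i2 w).1, x) = (w.1, iv x) := by
      unfold i2
      simp only
      rw [iv_iv nzw.1]
    unfold Kel
    rw [h1]
    have h2 : nw n ((i2 w).1, x).1 = (nw n w.1)⁻¹ := c0
    rw [h2]
    simp only [hu]
    ring
  rw [hu2]
  have hU1 : IsOpen {y : V n | (w.1, y) ∈ U} :=
    hU.preimage (by fun_prop : Continuous fun y : V n => (w.1, y))
  have su : ContDiffOn ℝ ∞ u {y : V n | (w.1, y) ∈ U} := by
    refine contDiffOn_const.mul ?_
    exact hk.comp (contDiff_const.prodMk contDiff_id).contDiffOn fun y hy => hy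
  have key := kel_id hn hs hy hU1 (fun y hy => (h0 _ hy).2) su (y := w.2) hw
  have e2 : (i2 w).2 = iv w.2 := rfl
  rw [e2, key]
  have sk2 : ContDiffOn ℝ ∞ (fun z => (nw n w.1)⁻¹ * k z) U := contDiffOn_const.mul hk
  have e3 : Ldv (ks s) u w.2 = (nw n w.1)⁻¹ * DY t k w := by
    have h1 : Ldv (ks s) u w.2 = Ldv t u w.2 := by
      refine Ldv_ev (EventuallyEq.refl _ _) ?_
      filter_upwards [hO.mem_nhds hwO] with y hy
      exact (he y hy).1.symm
    rw [h1, ← DY_sm ht hU hk hw, DY_sl ht hU sk2 hw]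
  have e4 : u w.2 = (nw n w.1)⁻¹ * k w := rfl
  rw [e3, e4, ← (he w.2 hwO).2]
  unfold DYv
  ring

end Vale.Agent.P088.R2.H269
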