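import Vale.Agent.P088.R2.H269.X.X2

/-!
# P088, stage 3: vanishing in the top degree, potentials
-/

open MeasureTheory Set Filter
open scoped ContDiff Matrix Topology

noncomputable section

set_option linter.unusedSectionVars false

namespace Vale.Agent.P088.R2.H269

open Vale.Agent.P088.LR Vale.Agent.P088.HY

variable {J E ι : Type} [Fintype J] [Fintype ι] [NormedAddCommGroup E] [NormedSpace ℝ E]
  {e : J → E} {f g h W χ ψ : E → ℝ}

/-- The exhaustion of `U`: cut-offs with bounds by `C`. -/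
def Exv (U : Set E) (e : J → E) (a : ι → J → J → E → ℝ) (v : ι → E → ℝ) (W : E → ℝ) (C : ℝ) : Prop :=
  ∀ K : Set E, IsCompact K → K ⊆ U → ∃ (χ ψ : E → ℝ) (m : ℝ), ContDiff ℝ ∞ χ ∧
    HasCompactSupport χ ∧ tsupport χ ⊆ U ∧ ContDiff ℝ ∞ ψ ∧ (∀ z, 0 ≤ χ z) ∧ (∀ z, χ z ≤ 1) ∧
    (∀ z, 0 ≤ ψ z) ∧ (∀ z, ψ z ≤ 1) ∧ 0 ≤ m ∧ m ≤ C ∧
    (∀ z ∈ K, χ =ᶠ[𝓝 z] (fun _ => 1) ∧ ψ z = 0) ∧
    (∀ z ∈ tsupport χ, z ∉ K → ∀ k, Bv e (a k) (v k) W χ ψ m C z) ∧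
    ∀ z ∈ tsupport χ, m * Real.exp (-(2 * W z)) ≤ C

lemma Bv.congr {a : J → J → E → ℝ} {v W W' χ ψ : E → ℝ} {m C : ℝ} {z : E}
    (h : Bv e a v W χ ψ m C z) (hW : W =ᶠ[𝓝 z] W') : Bv e a v W' χ ψ m C z := by
  refine ⟨h.c1, ?_, ?_, h.c5, h.c6, h.hc⟩
  · rw [← (Gm_congr (e := e) (a := a) hW hW).self_of_nhds]
    exact h.c3
  · rw [← (Ld_congr (e := e) (a := a) hW).self_of_nhds]
    exact h.c4

/-- from the exhaustion without potentials -/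
lemma Ex.v {U : Set E} {a : ι → J → J → E → ℝ} {v : ι → E → ℝ} {C B : ℝ} (hex : Ex U e a W C)
    (hC : 0 ≤ C) (hB : ∀ k z, |v k z| ≤ B) (hB0 : 0 ≤ B) : Exv U e a v W (C + C * B) := by
  intro K hK hKU
  obtain ⟨χ, ψ, m, sχ, cχ, tχ, sψ, χ0, χ1, ψ0, ψ1, m0, mC, hin, hbd, hexp⟩ := hex K hK hKU
  have CB : 0 ≤ C * B := mul_nonneg hC hB0
  refine ⟨χ, ψ, m, sχ, cχ, tχ, sψ, χ0, χ1, ψ0, ψ1, m0, by linarith, hin, fun z hz hn k => ?_,
    fun z hz => (hexp z hz).trans (by linarith)⟩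
  obtain ⟨b1, b3, b4, b5, b6, bc⟩ := hbd z hz hn k
  refine ⟨b1, by linarith, ?_, by linarith, by linarith, bc⟩
  have h1 : |Ld e (a k) W z - v k z| ≤ |Ld e (a k) W z| + |v k z| := abs_sub _ _
  have h2 : m * |v k z| ≤ C * B := mul_le_mul mC (hB k z) (abs_nonneg _) hC
  have h3 := mul_le_mul_of_nonneg_left h1 m0
  linarith

variable [FiniteDimensional ℝ E] [MeasurableSpace E] [BorelSpace E] {μ : Measure E}
  [μ.IsAddHaarMeasure]

lemma contv_Qv {U : Set E} (hU : IsOpen U) {a : J → J → E → ℝ} {v : E → ℝ} (ha : ∀ i j, S (a i j))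
    (hv : S v) (hW : ContDiffOn ℝ ∞ W U) (hg : ContDiffOn ℝ ∞ g U) {z : E} (hz : z ∈ U) :
    ContDiffAt ℝ ∞ (Qv e a v W g) z :=
  (cdo_Qv hU ha hv hW hg).contDiffAt (hU.mem_nhds hz)

/-- the estimate for one pair of cut-offs -/
theorem topv_key {U : Set E} (hU : IsOpen U) {a : ι → J → J → E → ℝ} {v : ι → E → ℝ}
    (ha : ∀ k i j, S (a k i j)) (hs : ∀ k i j z, a k i j z = a k j i z) (hv : ∀ k, S (v k))
    (hp : ∀ k, Pos (a k))
    (hW : ContDiffOn ℝ ∞ W U) {C : ℝ} (hC : 0 ≤ C) (hex : Exv U e a v W C) (hg : ContDiffOn ℝ ∞ g U)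
    (hgi : IntegrableOn (fun z => g z ^ 2) U μ)
    (heq : ∀ z ∈ U, ∑ k, Qv e (a k) (v k) (fun z => -W z) (Qv e (a k) (v k) W g) z = 0)
    {K₀ : Set E} (hK₀ : IsCompact K₀) (hK₀U : K₀ ⊆ U) {ε : ℝ} (hε : 0 < ε) :
    ∫ z in K₀, ∑ k, Qv e (a k) (v k) W g z ^ 2 ∂μ ≤ 2 ^ 21 * (C + 1) ^ 2 * Fintype.card ι * ε := by
  obtain ⟨K, hK, hK0K, hKU, hKε⟩ := exists_small hU hK₀ hK₀U hgi hε
  obtain ⟨χ, ψ, m, sχ, cχ, tχ, sψ, χ0, χ1, ψ0, ψ1, m0, mC, hin, hbd, -⟩ := hex K hK hKU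
  obtain ⟨κ, k1, k2, k3, k4⟩ := exists_cut hU cχ tχ
  have sW' : S (fun z => κ z * W z) := S.cut hU k1 k3 hW
  have sg' : S (fun z => κ z * g z) := S.cut hU k1 k3 hg
  have evW : ∀ z ∈ tsupport χ, (fun z => κ z * W z) =ᶠ[𝓝 z] W := fun z hz => cut_ev (k4 z hz)
  have evg : ∀ z ∈ tsupport χ, (fun z => κ z * g z) =ᶠ[𝓝 z] g := fun z hz => cut_ev (k4 z hz)
  have evQ : ∀ z ∈ tsupport χ, ∀ k, Qv e (a k) (v k) (fun z => κ z * W z) (fun z => κ z * g z)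
      =ᶠ[𝓝 z] Qv e (a k) (v k) W g := fun z hz k => Qv_congr (evW z hz) (evg z hz)
  have evP : ∀ z ∈ tsupport χ, ∀ k, Qv e (a k) (v k) (fun z => -(κ z * W z))
      (Qv e (a k) (v k) (fun z => κ z * W z) (fun z => κ z * g z)) z
      = Qv e (a k) (v k) (fun z => -W z) (Qv e (a k) (v k) W g) z := fun z hz k =>
    (Qv_congr (EventuallyEq.neg (evW z hz)) (evQ z hz k)).self_of_nhds
  have main := topv_loc (μ := μ) (e := e) ha hs hv hp sW' sg' sχ cχ sψ χ0 χ1 ψ0 ψ1 hC m0 mC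
    (N := Kᶜ) hK.measurableSet.compl
    (fun z hz => by
      rw [Finset.sum_congr rfl fun k _ => evP z hz k]
      exact heq z (tχ hz))
    (fun z hz hn => hin z (not_not.1 hn))
    (fun z hz hn k => (hbd z hz hn k).congr (evW z hz).symm)
  have r1 : ∫ z in tsupport χ ∩ Kᶜ, (κ z * g z) ^ 2 ∂μ ≤ ε := by
    have e1 : ∫ z in tsupport χ ∩ Kᶜ, (κ z * g z) ^ 2 ∂μ = ∫ z in tsupport χ ∩ Kᶜ, g z ^ 2 ∂μ := by
      refine setIntegral_congr_fun ((isClosed_tsupport χ).measurableSet.inter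
        hK.measurableSet.compl) fun z hz => ?_
      have := (k4 z hz.1).self_of_nhds
      simp only [this, one_mul]
    rw [e1]
    refine le_trans (setIntegral_mono_set (hgi.mono_set sdiff_subset)
      (Eventually.of_forall fun z => sq_nonneg (g z)) ?_) hKε
    refine (Eventually.of_forall fun z hz => ?_)
    exact ⟨tχ hz.1, hz.2⟩
  have l1 : ∫ z in K₀, ∑ k, Qv e (a k) (v k) W g z ^ 2 ∂μ
      ≤ ∫ z, χ z ^ 4 * ∑ k, Qv e (a k) (v k) (fun z => κ z * W z) (fun z => κ z * g z) z ^ 2 ∂μ := by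
    have s1 : S (fun z => χ z ^ 4 *
        ∑ k, Qv e (a k) (v k) (fun z => κ z * W z) (fun z => κ z * g z) z ^ 2) :=
      (sχ.pow 4).mul (S.sum fun k _ => (S.Qv (ha k) (hv k) sW' sg').pow 2)
    have c1 : HasCompactSupport (fun z => χ z ^ 4 *
        ∑ k, Qv e (a k) (v k) (fun z => κ z * W z) (fun z => κ z * g z) z ^ 2) := by
      refine cs_ts cχ ?_
      have : (fun z => χ z ^ 4 * ∑ k, Qv e (a k) (v k) (fun z => κ z * W z) (fun z => κ z * g z) z ^ 2)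
          = fun z => χ z * (χ z ^ 3 *
            ∑ k, Qv e (a k) (v k) (fun z => κ z * W z) (fun z => κ z * g z) z ^ 2) := by
        ext z
        ring
      rw [this]
      exact ts_mul_left _ _
    have i1 := S.int (μ := μ) s1 c1
    have e1 : ∫ z in K₀, ∑ k, Qv e (a k) (v k) W g z ^ 2 ∂μ = ∫ z in K₀, χ z ^ 4 *
        ∑ k, Qv e (a k) (v k) (fun z => κ z * W z) (fun z => κ z * g z) z ^ 2 ∂μ := by
      refine setIntegral_congr_fun hK₀.measurableSet fun z hz => ?_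
      have h1 := (hin z (hK0K hz)).1.self_of_nhds
      have hz' : z ∈ tsupport χ := subset_tsupport _ (by
        rw [Function.mem_support, h1]
        norm_num)
      simp only [h1, one_pow, one_mul]
      exact Finset.sum_congr rfl fun k _ => by rw [(evQ z hz' k).self_of_nhds]
    rw [e1]
    refine setIntegral_le_integral i1 (Eventually.of_forall fun z => ?_)
    exact mul_nonneg (pow_nonneg (χ0 z) 4) (Finset.sum_nonneg fun k _ => sq_nonneg _)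
  have hD0 : 0 ≤ 2 ^ 21 * (C + 1) ^ 2 * (Fintype.card ι : ℝ) := by positivity
  calc _ ≤ _ := l1
    _ ≤ _ := main
    _ ≤ _ := mul_le_mul_of_nonneg_left r1 hD0

/-- Vanishing in the top degree, first half: the factors vanish. -/
theorem topv_half {U : Set E} (hU : IsOpen U) {a : ι → J → J → E → ℝ} {v : ι → E → ℝ}
    (ha : ∀ k i j, S (a k i j)) (hs : ∀ k i j z, a k i j z = a k j i z) (hv : ∀ k, S (v k))
    (hp : ∀ k, Pos (a k))
    (hW : ContDiffOn ℝ ∞ W U) {C : ℝ} (hex : Exv U e a v W C) (hg : ContDiffOn ℝ ∞ g U)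
    (hgi : IntegrableOn (fun z => g z ^ 2) U μ)
    (heq : ∀ z ∈ U, ∑ k, Qv e (a k) (v k) (fun z => -W z) (Qv e (a k) (v k) W g) z = 0) :
    ∀ z ∈ U, ∀ k, Qv e (a k) (v k) W g z = 0 := by
  intro z₀ hz₀ k₀
  obtain ⟨K₀, hK₀, hK₀n, hK₀U⟩ : ∃ K₀, IsCompact K₀ ∧ K₀ ∈ 𝓝 z₀ ∧ K₀ ⊆ U := by
    obtain ⟨K₀, h1, h2, h3⟩ := local_compact_nhds (hU.mem_nhds hz₀)
    exact ⟨K₀, h3, h1, h2⟩
  have cQ : ∀ k, ContinuousOn (Qv e (a k) (v k) W g) K₀ := fun k z hz =>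
    (contv_Qv hU (ha k) (hv k) hW hg (hK₀U hz)).continuousAt.continuousWithinAt
  have cX : ContinuousOn (fun z => ∑ k, Qv e (a k) (v k) W g z ^ 2) K₀ :=
    continuousOn_finsetSum _ fun k _ => (cQ k).pow 2
  have IX : IntegrableOn (fun z => ∑ k, Qv e (a k) (v k) W g z ^ 2) K₀ μ :=
    cX.integrableOn_compact hK₀
  have nn : ∀ z, 0 ≤ ∑ k, Qv e (a k) (v k) W g z ^ 2 := fun z => Finset.sum_nonneg fun k _ => sq_nonneg _
  have hC : 0 ≤ C := by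
    obtain ⟨χ, ψ, m, -, -, -, -, -, -, -, -, h1, h2, -⟩ := hex K₀ hK₀ hK₀U
    exact h1.trans h2
  set D : ℝ := 2 ^ 21 * (C + 1) ^ 2 * Fintype.card ι with hD
  have hD0 : 0 ≤ D := by positivity
  have z1 : ∫ z in K₀, ∑ k, Qv e (a k) (v k) W g z ^ 2 ∂μ ≤ 0 := by
    refine le_of_forall_pos_le_add fun ε hε => ?_
    have hε' : 0 < ε / (D + 1) := by positivity
    have := topv_key (μ := μ) hU ha hs hv hp hW hC hex hg hgi heq hK₀ hK₀U hε'
    have h3 : D * (ε / (D + 1)) ≤ ε := by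
      rw [mul_div_assoc', div_le_iff₀ (by positivity)]
      nlinarith
    linarith
  have h0 := zero_of_int (μ := μ) hK₀n cX IX nn z1
  have h1 := (Finset.sum_eq_zero_iff_of_nonneg fun k _ => sq_nonneg (Qv e (a k) (v k) W g z₀)).1 h0 k₀
    (Finset.mem_univ _)
  exact pow_eq_zero_iff (two_ne_zero) |>.1 h1

end Vale.Agent.P088.R2.H269
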