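import Vale.Agent.P088.R2.H269.X.X3

/-!
# P088, stage 3: vanishing in the top degree, potentials, second half
-/

open MeasureTheory Set Filter
open scoped ContDiff Matrix Topology

noncomputable section

set_option linter.unusedSectionVars false

namespace Vale.Agent.P088.R2.H269

open Vale.Agent.P088.LR Vale.Agent.P088.HY

variable {J E ι : Type} [Fintype J] [Fintype ι] [NormedAddCommGroup E] [NormedSpace ℝ E]
  {e : J → E} {f g h W χ ψ : E → ℝ}
  [FiniteDimensional ℝ E] [MeasurableSpace E] [BorelSpace E] {μ : Measure E}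
  [μ.IsAddHaarMeasure]

/-- the energy identity -/
theorem en_loc {a : J → J → E → ℝ} {v : E → ℝ} (ha : ∀ i j, S (a i j))
    (hs : ∀ i j z, a i j z = a j i z) (hv : S v) (hh : S h) (hχ : S χ) (hc : HasCompactSupport χ)
    (h0 : ∀ z ∈ tsupport χ, Lv e a v h z = 0) :
    ∫ z, Gm e a (fun z => χ z * h z) (fun z => χ z * h z) z ∂μ
      = (∫ z, v z * (χ z * h z) ^ 2 ∂μ) + ∫ z, Gm e a χ χ z * h z ^ 2 ∂μ := by
  have c := int_cac (μ := μ) (e := e) ha hχ hc hh
  have sp : S (fun z => χ z * h z) := hχ.mul hh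
  have cp : HasCompactSupport (fun z => χ z * h z) := cs_mul_right hc
  have I1 : Integrable (fun z => Gm e a (fun z => χ z * h z) (fun z => χ z * h z) z) μ :=
    S.int (S.Gm ha sp sp) (cs_Gm_left cp _)
  have I2 : Integrable (fun z => Gm e a χ χ z * h z ^ 2) μ :=
    S.int ((S.Gm ha hχ hχ).mul (hh.pow 2)) (cs_mul_right (cs_Gm_left hc χ))
  have c2 : HasCompactSupport (fun z => (χ z * h z) ^ 2) := by
    have := cs_mul_right (g := fun z => χ z * h z) cp
    simpa only [pow_two] using this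
  have I3 : Integrable (fun z => v z * (χ z * h z) ^ 2) μ :=
    S.int (hv.mul (sp.pow 2)) (cs_mul_left c2)
  have key : ∀ z, χ z ^ 2 * h z * Ld e a h z + χ z ^ 2 * Gm e a h h z
      + 2 * (χ z * h z * Gm e a χ h z)
      = Gm e a (fun z => χ z * h z) (fun z => χ z * h z) z - v z * (χ z * h z) ^ 2
        - Gm e a χ χ z * h z ^ 2 := by
    intro z
    have k1 : χ z ^ 2 * h z * Ld e a h z = -(v z * (χ z * h z) ^ 2) := by
      by_cases hz : z ∈ tsupport χ
      · have := h0 z hz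
        unfold Lv at this
        have h2 : Ld e a h z = -(v z * h z) := by linarith
        rw [h2]
        ring
      · rw [image_eq_zero_of_notMem_tsupport hz]
        ring
    rw [k1, Gm_mul_left hχ hh, Gm_mul_right hχ hh, Gm_mul_right hχ hh, Gm_comm hs h χ]
    ring
  have I13 : Integrable (fun z => Gm e a (fun z => χ z * h z) (fun z => χ z * h z) z
      - v z * (χ z * h z) ^ 2) μ := I1.sub I3
  simp only [key] at c
  rw [integral_sub I13 I2, integral_sub I1 I3] at c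
  linarith

/-- form bounded potentials -/
def Fb (U : Set E) (e : J → E) (a : J → J → E → ℝ) (v : E → ℝ) (θ : ℝ) (μ : Measure E) : Prop :=
  ∀ f : E → ℝ, Tt U f → ∫ z, v z * f z ^ 2 ∂μ ≤ θ * ∫ z, Gm e a f f z ∂μ

/-- Solutions with `e^W h` square integrable have vanishing energy. -/
theorem energyv_zero {U : Set E} (hU : IsOpen U) {a : ι → J → J → E → ℝ} {v : ι → E → ℝ}
    (ha : ∀ k i j, S (a k i j)) (hs : ∀ k i j z, a k i j z = a k j i z) (hv : ∀ k, S (v k))
    (hp : ∀ k, Pos (a k)) {θ : ℝ} (hθ : θ < 1) (hfb : ∀ k, Fb U e (a k) (v k) θ μ)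
    {C : ℝ} (hex : Exv U e a v W C) (hh : ContDiffOn ℝ ∞ h U)
    (hgi : IntegrableOn (fun z => (Real.exp (W z) * h z) ^ 2) U μ)
    (heq : ∀ z ∈ U, ∀ k, Lv e (a k) (v k) h z = 0) :
    ∀ z ∈ U, ∀ k, Gm e (a k) h h z = 0 := by
  intro z₀ hz₀ k₀
  obtain ⟨K₀, hK₀, hK₀n, hK₀U⟩ : ∃ K₀, IsCompact K₀ ∧ K₀ ∈ 𝓝 z₀ ∧ K₀ ⊆ U := by
    obtain ⟨K₀, h1, h2, h3⟩ := local_compact_nhds (hU.mem_nhds hz₀)
    exact ⟨K₀, h3, h1, h2⟩
  have cX : ContinuousOn (fun z => Gm e (a k₀) h h z) K₀ := fun z hz =>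
    ((cdo_Gm hU (ha k₀) hh hh).contDiffAt
      (hU.mem_nhds (hK₀U hz))).continuousAt.continuousWithinAt
  have IX : IntegrableOn (fun z => Gm e (a k₀) h h z) K₀ μ := cX.integrableOn_compact hK₀
  have hC : 0 ≤ C := by
    obtain ⟨χ, ψ, m, -, -, -, -, -, -, -, -, h1, h2, -⟩ := hex K₀ hK₀ hK₀U
    exact h1.trans h2
  have θ1 : 0 < 1 - θ := by linarith
  refine zero_of_int (μ := μ) hK₀n cX IX (fun z => Gm_nonneg (hp k₀) h z) ?_
  refine le_of_forall_pos_le_add fun ε hε => ?_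
  obtain ⟨K, hK, hK0K, hKU, hKε⟩ := exists_small hU hK₀ hK₀U hgi
    (show (0 : ℝ) < (1 - θ) * ε / (C + 1) by positivity)
  obtain ⟨χ, ψ, m, sχ, cχ, tχ, sψ, χ0, χ1, ψ0, ψ1, m0, mC, hin, hbd, hexp⟩ := hex K hK hKU
  obtain ⟨κ, k1, k2, k3, k4⟩ := exists_cut hU cχ tχ
  have sh' : S (fun z => κ z * h z) := S.cut hU k1 k3 hh
  have evh : ∀ z ∈ tsupport χ, (fun z => κ z * h z) =ᶠ[𝓝 z] h := fun z hz => cut_ev (k4 z hz)
  have main := en_loc (μ := μ) (e := e) (ha k₀) (hs k₀) (hv k₀) sh' sχ cχ (fun z hz => by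
    rw [(Lv_congr (e := e) (a := a k₀) (v := v k₀) (evh z hz)).self_of_nhds]
    exact heq z (tχ hz) k₀)
  have sp : S (fun z => χ z * (κ z * h z)) := sχ.mul sh'
  have cp : HasCompactSupport (fun z => χ z * (κ z * h z)) := cs_mul_right cχ
  have tp : Tt U (fun z => χ z * (κ z * h z)) := ⟨sp, cp, (ts_mul_left _ _).trans tχ⟩
  have bd := hfb k₀ _ tp
  set En : ℝ := ∫ z, Gm e (a k₀) (fun z => χ z * (κ z * h z)) (fun z => χ z * (κ z * h z)) z ∂μ
    with hEn
  have l1 : ∫ z in K₀, Gm e (a k₀) h h z ∂μ ≤ En := by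
    have i1 : Integrable (fun z =>
        Gm e (a k₀) (fun z => χ z * (κ z * h z)) (fun z => χ z * (κ z * h z)) z) μ :=
      S.int (S.Gm (ha k₀) sp sp) (cs_Gm_left cp _)
    have e1 : ∫ z in K₀, Gm e (a k₀) h h z ∂μ = ∫ z in K₀,
        Gm e (a k₀) (fun z => χ z * (κ z * h z)) (fun z => χ z * (κ z * h z)) z ∂μ := by
      refine setIntegral_congr_fun hK₀.measurableSet fun z hz => ?_
      have h1 := (hin z (hK0K hz)).1
      have hz' : z ∈ tsupport χ := subset_tsupport _ (by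
        rw [Function.mem_support, h1.self_of_nhds]
        norm_num)
      have h2 : (fun z => χ z * (κ z * h z)) =ᶠ[𝓝 z] h := by
        filter_upwards [h1, evh z hz'] with w m1 m2
        rw [m1, one_mul]
        exact m2
      exact ((Gm_congr (e := e) (a := a k₀) h2 h2).self_of_nhds).symm
    rw [e1]
    refine setIntegral_le_integral i1 (Eventually.of_forall fun z => ?_)
    exact Gm_nonneg (hp k₀) _ z
  have r1 : ∫ z, Gm e (a k₀) χ χ z * (κ z * h z) ^ 2 ∂μ
      ≤ C * ∫ z in U \ K, (Real.exp (W z) * h z) ^ 2 ∂μ := by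
    have hm : MeasurableSet (U \ K) := hU.measurableSet.diff hK.measurableSet
    have i2 : Integrable (fun z => Gm e (a k₀) χ χ z * (κ z * h z) ^ 2) μ :=
      S.int ((S.Gm (ha k₀) sχ sχ).mul (sh'.pow 2)) (cs_mul_right (cs_Gm_left cχ χ))
    have i3 : Integrable (fun z => C * (U \ K).indicator
        (fun z => (Real.exp (W z) * h z) ^ 2) z) μ :=
      ((integrable_indicator_iff hm).2 (hgi.mono_set sdiff_subset)).const_mul C
    rw [← integral_indicator hm, ← integral_const_mul]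
    refine integral_mono i2 i3 fun z => ?_
    simp only
    by_cases hz : z ∈ tsupport χ
    · by_cases hzK : z ∈ K
      · have h1 := (hin z hzK).1
        have h2 : Gm e (a k₀) χ χ z = 0 := by
          rw [(Gm_congr (e := e) (a := a k₀) h1 h1).self_of_nhds]
          unfold H269.Gm
          simp [db_const]
        rw [h2, zero_mul]
        exact mul_nonneg hC (indicator_nonneg (fun z _ => sq_nonneg _) z)
      · rw [indicator_of_mem (show z ∈ U \ K from ⟨tχ hz, hzK⟩), (k4 z hz).self_of_nhds, one_mul]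
        have h1 := (hbd z hz hzK k₀).c1
        have h2 := hexp z hz
        have e1 : Real.exp (-(2 * W z)) * Real.exp (W z) ^ 2 = 1 := by
          rw [← Real.exp_nat_mul, ← Real.exp_add]
          norm_num
        calc Gm e (a k₀) χ χ z * h z ^ 2 ≤ m * h z ^ 2 :=
              mul_le_mul_of_nonneg_right h1 (sq_nonneg _)
          _ = m * (Real.exp (-(2 * W z)) * Real.exp (W z) ^ 2) * h z ^ 2 := by rw [e1]; ring
          _ = (m * Real.exp (-(2 * W z))) * (Real.exp (W z) * h z) ^ 2 := by ring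
          _ ≤ C * (Real.exp (W z) * h z) ^ 2 := mul_le_mul_of_nonneg_right h2 (sq_nonneg _)
    · have h2 : Gm e (a k₀) χ χ z = 0 :=
        image_eq_zero_of_notMem_tsupport fun h => hz (ts_Gm_left χ χ h)
      rw [h2, zero_mul]
      exact mul_nonneg hC (indicator_nonneg (fun z _ => sq_nonneg _) z)
  have r2 : C * ((1 - θ) * ε / (C + 1)) ≤ (1 - θ) * ε := by
    have : C * ((1 - θ) * ε / (C + 1)) = ((1 - θ) * ε) * (C / (C + 1)) := by ring
    rw [this]
    have h1 : C / (C + 1) ≤ 1 := by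
      rw [div_le_one (by positivity)]
      linarith
    calc ((1 - θ) * ε) * (C / (C + 1)) ≤ ((1 - θ) * ε) * 1 :=
          mul_le_mul_of_nonneg_left h1 (by positivity)
      _ = _ := mul_one _
  have r3 := mul_le_mul_of_nonneg_left hKε hC
  have r4 : (1 - θ) * En ≤ (1 - θ) * ε := by linarith
  have r5 : En ≤ ε := le_of_mul_le_mul_left r4 θ1
  linarith

/-- Vanishing in the top degree. -/
theorem topv3 {U : Set E} (hU : IsOpen U) (hUc : IsPreconnected U) {a : ι → J → J → E → ℝ}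
    {v : ι → E → ℝ} (ha : ∀ k i j, S (a k i j)) (hs : ∀ k i j z, a k i j z = a k j i z)
    (hv : ∀ k, S (v k)) (hp : ∀ k, Pos (a k)) (hell : Ell U e a)
    {θ : ℝ} (hθ : θ < 1) (hfb : ∀ k, Fb U e (a k) (v k) θ μ)
    (hW : ContDiffOn ℝ ∞ W U) {C : ℝ} (hex : Exv U e a v W C)
    (hinf : ¬ IntegrableOn (fun z => Real.exp (2 * W z)) U μ) (hg : ContDiffOn ℝ ∞ g U)
    (hgi : IntegrableOn (fun z => g z ^ 2) U μ)
    (heq : ∀ z ∈ U, ∑ k, Qv e (a k) (v k) (fun z => -W z) (Qv e (a k) (v k) W g) z = 0) :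
    ∀ z ∈ U, g z = 0 := by
  have h1 := topv_half (μ := μ) hU ha hs hv hp hW hex hg hgi heq
  set h : E → ℝ := fun z => Real.exp (-W z) * g z with hh
  have sh : ContDiffOn ℝ ∞ h U := (hW.neg.exp).mul hg
  have hg' : ∀ z, g z = Real.exp (W z) * h z := by
    intro z
    rw [hh]
    simp only
    rw [← mul_assoc, ← Real.exp_add]
    simp
  have eqL : ∀ z ∈ U, ∀ k, Lv e (a k) (v k) h z = 0 := by
    intro z hz k
    obtain ⟨κ, k1, k2, k3, k4⟩ := exists_cut hU (isCompact_singleton (x := z))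
      (singleton_subset_iff.2 hz)
    have ev := k4 z rfl
    have sW' := S.cut hU k1 k3 hW
    have sg' := S.cut hU k1 k3 hg
    have e1 := Qv_eq (e := e) (v := v k) (ha k) (hs k) sW' sg' z
    rw [(Qv_congr (e := e) (a := a k) (v := v k) (cut_ev (f := W) ev)
      (cut_ev (f := g) ev)).self_of_nhds, h1 z hz k] at e1
    have e2 : (fun w => Real.exp (-(κ w * W w)) * (κ w * g w)) =ᶠ[𝓝 z] h := by
      filter_upwards [ev] with w hw
      rw [hw, hh]
      simp
    rw [(Lv_congr (e := e) (a := a k) (v := v k) e2).self_of_nhds] at e1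
    exact (mul_eq_zero.1 e1.symm).resolve_left (Real.exp_pos _).ne'
  have hgi' : IntegrableOn (fun z => (Real.exp (W z) * h z) ^ 2) U μ := by
    refine hgi.congr_fun (fun z _ => ?_) hU.measurableSet
    simp only
    rw [← hg' z]
  have en := energyv_zero (μ := μ) hU ha hs hv hp hθ hfb hex sh hgi' eqL
  have fd : ∀ z ∈ U, fderiv ℝ h z = 0 := fun z hz => hell h z hz (en z hz)
  intro z hz
  have hc : ∀ w ∈ U, h w = h z := by
    intro w hw
    exact hU.is_const_of_fderiv_eq_zero hUc (sh.differentiableOn (by simp)) fd hw hz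
  by_contra hne
  have hz0 : h z ≠ 0 := by
    intro h0
    rw [hg' z, h0, mul_zero] at hne
    exact hne rfl
  apply hinf
  have h5 : IntegrableOn (fun w => (h z ^ 2)⁻¹ * (Real.exp (W w) * h w) ^ 2) U μ :=
    hgi'.const_mul _
  refine h5.congr_fun (fun w hw => ?_) hU.measurableSet
  have key : ∀ c : ℝ, c ≠ 0 → ∀ x : ℝ, (c ^ 2)⁻¹ * (x * c) ^ 2 = x ^ 2 := by
    intro c hc x
    field_simp
  have k2 := key (h z) hz0 (Real.exp (W w))
  rw [← Real.exp_nat_mul] at k2
  simp only [hc w hw]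
  rw [k2]
  norm_num

end Vale.Agent.P088.R2.H269
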