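import Vale.Agent.P088.R2.H269.X.X4

/-!
# P088, stage 3: regularity of the weak solution, potentials
-/

open MeasureTheory Set Filter
open scoped ContDiff Matrix Topology

noncomputable section

set_option linter.unusedSectionVars false

namespace Vale.Agent.P088.R2.H269

open Vale.Agent.P088.LR Vale.Agent.P088.HY

variable {J E : Type} [Fintype J] [NormedAddCommGroup E] [NormedSpace ℝ E]
  [FiniteDimensional ℝ E] {e : J → E} {a : J → J → E → ℝ} {v f g h W : E → ℝ} {U : Set E}

/-- zeroth order coefficient of `Qv` -/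
def d0 (e : J → E) (a : J → J → E → ℝ) (v W : E → ℝ) (z : E) : ℝ := c0 e a W z + v z

lemma Qv_op2 (ha : ∀ i j, S (a i j)) (hf : S f) (z : E) :
    Qv e a v W f z = op2 e a (c1 e a W) (d0 e a v W) f z := by
  unfold H269.Qv
  rw [Qd_op2 ha hf]
  unfold op2 d0
  ring

lemma cdo_d0 (hU : IsOpen U) (ha : ∀ i j, S (a i j)) (hv : S v) (hW : ContDiffOn ℝ ∞ W U) :
    ContDiffOn ℝ ∞ (d0 e a v W) U := (cdo_c0 hU ha hW).add hv.contDiffOn

variable [MeasurableSpace E] [BorelSpace E] {μ : Measure E} [μ.IsAddHaarMeasure]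

/-- Regularity. -/
theorem regv (hyp : RowHYP) (hU : IsOpen U) (b : Module.Basis J ℝ E) {a : Fin 2 → J → J → E → ℝ}
    {v : Fin 2 → E → ℝ} (ha : ∀ k i j, S (a k i j)) (hv : ∀ k, S (v k)) (hp : ∀ k, Pos (a k))
    (hell : ∀ z ∈ U, ∀ ξ : J → ℝ, ξ ≠ 0 → 0 < ∑ i, ∑ j, (a 0 i j z + a 1 i j z) * (ξ i * ξ j))
    (hW : ContDiffOn ℝ ∞ W U) {w g G₁ G₂ : E → ℝ} (hw : AEStronglyMeasurable w μ)
    (hg : AEStronglyMeasurable g μ)
    (hwi : ∀ k : Set E, IsCompact k → k ⊆ U → IntegrableOn (fun z => w z ^ 2) k μ)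
    (hgi : ∀ k : Set E, IsCompact k → k ⊆ U → IntegrableOn (fun z => g z ^ 2) k μ)
    (hG₁ : ContDiffOn ℝ ∞ G₁ U) (hG₂ : ContDiffOn ℝ ∞ G₂ U)
    (weak : ∀ a₁ a₂ : E → ℝ, Tt U a₁ → Tt U a₂ →
      ∫ z, (w z * (Qv b (a 0) (v 0) W a₁ z + Qv b (a 1) (v 1) W a₂ z)
        + g z * (Qv b (a 1) (v 1) (fun z => -W z) a₁ z - Qv b (a 0) (v 0) (fun z => -W z) a₂ z)) ∂μ
        = ∫ z, (G₁ z * a₁ z + G₂ z * a₂ z) ∂μ) :
    ∃ w' g' : E → ℝ, ContDiffOn ℝ ∞ w' U ∧ ContDiffOn ℝ ∞ g' U ∧
      (∀ᵐ z ∂μ, z ∈ U → w' z = w z) ∧ ∀ᵐ z ∂μ, z ∈ U → g' z = g z := by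
  classical
  set V : E → ℝ := fun z => -W z with hV
  have sV : ContDiffOn ℝ ∞ V U := hW.neg
  have H := hyp J E μ b 2 U hU
    (fun p q => if p = 0 then (if q = 0 then a 0 else a 1)
      else (if q = 0 then a 1 else fun i j z => -a 0 i j z))
    (fun p q => if p = 0 then (if q = 0 then c1 b (a 0) W else c1 b (a 1) V)
      else (if q = 0 then c1 b (a 1) W else fun j z => -c1 b (a 0) V j z))
    (fun p q => if p = 0 then (if q = 0 then d0 b (a 0) (v 0) W else d0 b (a 1) (v 1) V)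
      else (if q = 0 then d0 b (a 1) (v 1) W else fun z => -d0 b (a 0) (v 0) V z))
    (by
      intro p q i j
      fin_cases p <;> fin_cases q
      · exact (ha 0 i j).contDiffOn
      · exact (ha 1 i j).contDiffOn
      · exact (ha 1 i j).contDiffOn
      · exact (ha 0 i j).contDiffOn.neg)
    (by
      intro p q j
      fin_cases p <;> fin_cases q
      · exact cdo_c1 hU (ha 0) hW j
      · exact cdo_c1 hU (ha 1) sV j
      · exact cdo_c1 hU (ha 1) hW j
      · exact (cdo_c1 hU (ha 0) sV j).neg)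
    (by
      intro p q
      fin_cases p <;> fin_cases q
      · exact cdo_d0 hU (ha 0) (hv 0) hW
      · exact cdo_d0 hU (ha 1) (hv 1) sV
      · exact cdo_d0 hU (ha 1) (hv 1) hW
      · exact (cdo_d0 hU (ha 0) (hv 0) sV).neg)
    (by
      intro z hz ξ hξ
      set α := ∑ i, ∑ j, a 0 i j z * ξ i * ξ j with hα
      set β := ∑ i, ∑ j, a 1 i j z * ξ i * ξ j with hβ
      have e1 : α = ∑ i, ∑ j, a 0 i j z * (ξ i * ξ j) := by
        rw [hα]
        exact Finset.sum_congr rfl fun i _ => Finset.sum_congr rfl fun j _ => by ring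
      have e2 : β = ∑ i, ∑ j, a 1 i j z * (ξ i * ξ j) := by
        rw [hβ]
        exact Finset.sum_congr rfl fun i _ => Finset.sum_congr rfl fun j _ => by ring
      have p1 : 0 ≤ α := by
        rw [e1]
        exact hp 0 z ξ
      have p2 : 0 ≤ β := by
        rw [e2]
        exact hp 1 z ξ
      have p3 : 0 < α + β := by
        have := hell z hz ξ hξ
        rw [e1, e2]
        simp only [← Finset.sum_add_distrib, ← add_mul]
        exact this
      have e3 : ∑ i, ∑ j, -a 0 i j z * ξ i * ξ j = -α := by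
        rw [hα, ← Finset.sum_neg_distrib]
        refine Finset.sum_congr rfl fun i _ => ?_
        rw [← Finset.sum_neg_distrib]
        exact Finset.sum_congr rfl fun j _ => by ring
      rw [Matrix.det_fin_two]
      simp only [Matrix.of_apply, if_true, one_ne_zero, if_false]
      rw [e3, ← hα, ← hβ]
      intro h0
      have h2 : α ^ 2 = 0 := by linarith [sq_nonneg α, sq_nonneg β]
      have h3 : β ^ 2 = 0 := by linarith [sq_nonneg α, sq_nonneg β]
      rw [pow_eq_zero_iff two_ne_zero] at h2 h3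
      linarith)
    (fun q => if q = 0 then w else g) (fun p => if p = 0 then G₁ else G₂)
    (by
      intro q
      fin_cases q
      · exact hw
      · exact hg)
    (by
      intro q k hk hkU
      fin_cases q
      · exact hwi k hk hkU
      · exact hgi k hk hkU)
    (by
      intro p
      fin_cases p
      · exact hG₁
      · exact hG₂)
    (by
      intro φ hφ
      have t0 : Tt U (φ 0) := ⟨(hφ 0).1, (hφ 0).2.1, (hφ 0).2.2⟩
      have t1 : Tt U (φ 1) := ⟨(hφ 1).1, (hφ 1).2.1, (hφ 1).2.2⟩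
      have := weak (φ 0) (φ 1) t0 t1
      have l : ∀ z, ∑ q : Fin 2, (if q = 0 then w else g) z * ∑ p : Fin 2, op2 b
          (if p = 0 then (if q = 0 then a 0 else a 1)
            else (if q = 0 then a 1 else fun i j z => -a 0 i j z))
          (if p = 0 then (if q = 0 then c1 b (a 0) W else c1 b (a 1) V)
            else (if q = 0 then c1 b (a 1) W else fun j z => -c1 b (a 0) V j z))
          (if p = 0 then (if q = 0 then d0 b (a 0) (v 0) W else d0 b (a 1) (v 1) V)
            else (if q = 0 then d0 b (a 1) (v 1) W else fun z => -d0 b (a 0) (v 0) V z)) (φ p) z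
          = w z * (Qv b (a 0) (v 0) W (φ 0) z + Qv b (a 1) (v 1) W (φ 1) z)
        + g z * (Qv b (a 1) (v 1) V (φ 0) z - Qv b (a 0) (v 0) V (φ 1) z) := by
        intro z
        have e4 : op2 b (fun i j z => -a 0 i j z) (fun j z => -c1 b (a 0) V j z)
            (fun z => -d0 b (a 0) (v 0) V z) (φ 1) z = -Qv b (a 0) (v 0) V (φ 1) z := by
          rw [Qv_op2 (ha 0) t1.s]
          unfold op2
          simp only [neg_mul, Finset.sum_neg_distrib]
          ring
        rw [Fin.sum_univ_two, Fin.sum_univ_two, Fin.sum_univ_two]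
        simp only [if_true, one_ne_zero, if_false]
        rw [e4, ← Qv_op2 (ha 0) t0.s, ← Qv_op2 (ha 1) t1.s, ← Qv_op2 (ha 1) t0.s]
        ring
      have r : ∀ z, ∑ p : Fin 2, (if p = 0 then G₁ else G₂) z * φ p z
          = G₁ z * φ 0 z + G₂ z * φ 1 z := by
        intro z
        rw [Fin.sum_univ_two]
        simp
      simp only [l, r]
      exact this)
  obtain ⟨w', hw1, hw2⟩ := H
  exact ⟨w' 0, w' 1, hw1 0, hw1 1, hw2 0, hw2 1⟩

end Vale.Agent.P088.R2.H269
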