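import Vale.Agent.P088.R2.H269.X.X5

/-!
# P088, stage 3: the overdetermined system with an arbitrary weight and potentials
-/

open MeasureTheory Set Filter
open scoped ContDiff Matrix Topology

noncomputable section

set_option linter.unusedSectionVars false

namespace Vale.Agent.P088.R2.H269

open Vale.Agent.P088.LR Vale.Agent.P088.HY

variable {J E : Type} [Fintype J] [NormedAddCommGroup E] [NormedSpace ℝ E]
  [FiniteDimensional ℝ E] {W : E → ℝ} {U : Set E}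
  [MeasurableSpace E] [BorelSpace E] {μ : Measure E} [μ.IsAddHaarMeasure]

/-- the strong equations -/
theorem strongv (hU : IsOpen U) (b : J → E)
    {a : Fin 2 → J → J → E → ℝ} {v : Fin 2 → E → ℝ} (ha : ∀ k i j, S (a k i j))
    (hs : ∀ k i j z, a k i j z = a k j i z) (hv : ∀ k, S (v k)) (hW : ContDiffOn ℝ ∞ W U)
    {w g G₁ G₂ : E → ℝ} (hw : ContDiffOn ℝ ∞ w U) (hg : ContDiffOn ℝ ∞ g U)
    (hG₁ : ContDiffOn ℝ ∞ G₁ U) (hG₂ : ContDiffOn ℝ ∞ G₂ U)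
    (weak : ∀ a₁ a₂ : E → ℝ, Tt U a₁ → Tt U a₂ →
      ∫ z, (w z * (Qv b (a 0) (v 0) W a₁ z + Qv b (a 1) (v 1) W a₂ z)
        + g z * (Qv b (a 1) (v 1) (fun z => -W z) a₁ z - Qv b (a 0) (v 0) (fun z => -W z) a₂ z)) ∂μ
        = ∫ z, (G₁ z * a₁ z + G₂ z * a₂ z) ∂μ) :
    (∀ z ∈ U, Qv b (a 0) (v 0) (fun z => -W z) w z + Qv b (a 1) (v 1) W g z = G₁ z) ∧
    (∀ z ∈ U, Qv b (a 1) (v 1) (fun z => -W z) w z - Qv b (a 0) (v 0) W g z = G₂ z) := by
  set V : E → ℝ := fun z => -W z with hV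
  have sV : ContDiffOn ℝ ∞ V U := hW.neg
  have z0 : ∀ (c : J → J → E → ℝ) (p X : E → ℝ) (z : E), Qv b c p X (fun _ => 0) z = 0 :=
    fun c p X z => congrFun Qv_zero z
  constructor
  · have hR : ContDiffOn ℝ ∞ (fun z => (Qv b (a 0) (v 0) V w z + Qv b (a 1) (v 1) W g z) - G₁ z) U :=
      ((cdo_Qv hU (ha 0) (hv 0) sV hw).add (cdo_Qv hU (ha 1) (hv 1) hW hg)).sub hG₁
    have h0 := zero_of_weak (μ := μ) hU hR (fun c hc => by
      have k := weak c (fun _ => 0) hc Tt.zero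
      simp only [z0, mul_zero, add_zero, sub_zero] at k
      have i1 : Integrable (fun z => w z * Qv b (a 0) (v 0) W c z) μ :=
        Tt.int (Tt.mul hU hw (Tt.Qv hU (ha 0) (hv 0) hW hc))
      have i2 : Integrable (fun z => g z * Qv b (a 1) (v 1) V c z) μ :=
        Tt.int (Tt.mul hU hg (Tt.Qv hU (ha 1) (hv 1) sV hc))
      have i3 : Integrable (fun z => Qv b (a 0) (v 0) V w z * c z) μ :=
        Tt.int (Tt.mul hU (cdo_Qv hU (ha 0) (hv 0) sV hw) hc)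
      have i4 : Integrable (fun z => Qv b (a 1) (v 1) W g z * c z) μ :=
        Tt.int (Tt.mul hU (cdo_Qv hU (ha 1) (hv 1) hW hg) hc)
      have i5 : Integrable (fun z => G₁ z * c z) μ := Tt.int (Tt.mul hU hG₁ hc)
      have i34 : Integrable (fun z => Qv b (a 0) (v 0) V w z * c z + Qv b (a 1) (v 1) W g z * c z) μ :=
        i3.add i4
      have e1 := adjv_on (μ := μ) (e := b) hU (ha 0) (hs 0) (hv 0) hW hw hc
      have e2 := adjv_on' (μ := μ) (e := b) hU (ha 1) (hs 1) (hv 1) hW hg hc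
      rw [integral_add i1 i2, e1, e2] at k
      have e4 : ∫ z, ((Qv b (a 0) (v 0) V w z + Qv b (a 1) (v 1) W g z) - G₁ z) * c z ∂μ
          = ((∫ z, Qv b (a 0) (v 0) V w z * c z ∂μ) + ∫ z, Qv b (a 1) (v 1) W g z * c z ∂μ)
            - ∫ z, G₁ z * c z ∂μ := by
        rw [← integral_add i3 i4, ← integral_sub i34 i5]
        congr 1
        ext z
        ring
      rw [e4]
      linarith)
    intro z hz
    linarith [h0 z hz]
  · have hR : ContDiffOn ℝ ∞ (fun z => (Qv b (a 1) (v 1) V w z - Qv b (a 0) (v 0) W g z) - G₂ z) U :=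
      ((cdo_Qv hU (ha 1) (hv 1) sV hw).sub (cdo_Qv hU (ha 0) (hv 0) hW hg)).sub hG₂
    have h0 := zero_of_weak (μ := μ) hU hR (fun c hc => by
      have k := weak (fun _ => 0) c Tt.zero hc
      simp only [z0, mul_zero, zero_add, zero_sub, mul_neg] at k
      have i1 : Integrable (fun z => w z * Qv b (a 1) (v 1) W c z) μ :=
        Tt.int (Tt.mul hU hw (Tt.Qv hU (ha 1) (hv 1) hW hc))
      have i2 : Integrable (fun z => g z * Qv b (a 0) (v 0) V c z) μ :=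
        Tt.int (Tt.mul hU hg (Tt.Qv hU (ha 0) (hv 0) sV hc))
      have i3 : Integrable (fun z => Qv b (a 1) (v 1) V w z * c z) μ :=
        Tt.int (Tt.mul hU (cdo_Qv hU (ha 1) (hv 1) sV hw) hc)
      have i4 : Integrable (fun z => Qv b (a 0) (v 0) W g z * c z) μ :=
        Tt.int (Tt.mul hU (cdo_Qv hU (ha 0) (hv 0) hW hg) hc)
      have i5 : Integrable (fun z => G₂ z * c z) μ := Tt.int (Tt.mul hU hG₂ hc)
      have i34 : Integrable (fun z => Qv b (a 1) (v 1) V w z * c z - Qv b (a 0) (v 0) W g z * c z) μ :=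
        i3.sub i4
      have e1 := adjv_on (μ := μ) (e := b) hU (ha 1) (hs 1) (hv 1) hW hw hc
      have e2 := adjv_on' (μ := μ) (e := b) hU (ha 0) (hs 0) (hv 0) hW hg hc
      have e3 : ∫ z, (w z * Qv b (a 1) (v 1) W c z + -(g z * Qv b (a 0) (v 0) V c z)) ∂μ
          = (∫ z, w z * Qv b (a 1) (v 1) W c z ∂μ) - ∫ z, g z * Qv b (a 0) (v 0) V c z ∂μ := by
        rw [← integral_sub i1 i2]
        congr 1
      rw [e3, e1, e2] at k
      have e4 : ∫ z, ((Qv b (a 1) (v 1) V w z - Qv b (a 0) (v 0) W g z) - G₂ z) * c z ∂μ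
          = ((∫ z, Qv b (a 1) (v 1) V w z * c z ∂μ) - ∫ z, Qv b (a 0) (v 0) W g z * c z ∂μ)
            - ∫ z, G₂ z * c z ∂μ := by
        rw [← integral_sub i3 i4, ← integral_sub i34 i5]
        congr 1
        ext z
        ring
      rw [e4]
      linarith)
    intro z hz
    linarith [h0 z hz]

/-- the second function solves the equation of the top degree -/
theorem topv_eq (hU : IsOpen U) (b : J → E)
    {a : Fin 2 → J → J → E → ℝ} {v : Fin 2 → E → ℝ} (ha : ∀ k i j, S (a k i j))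
    (hs : ∀ k i j z, a k i j z = a k j i z) (hv : ∀ k, S (v k))
    (hc : ∀ f, S f → ∀ z, Lv b (a 0) (v 0) (Lv b (a 1) (v 1) f) z = Lv b (a 1) (v 1) (Lv b (a 0) (v 0) f) z)
    (hW : ContDiffOn ℝ ∞ W U) {w g F₁ F₂ : E → ℝ} (hw : ContDiffOn ℝ ∞ w U)
    (hg : ContDiffOn ℝ ∞ g U) (hF₁ : ContDiffOn ℝ ∞ F₁ U) (hF₂ : ContDiffOn ℝ ∞ F₂ U)
    (comp : ∀ z ∈ U, Lv b (a 1) (v 1) F₁ z = Lv b (a 0) (v 0) F₂ z)
    (h1 : ∀ z ∈ U, Qv b (a 0) (v 0) (fun z => -W z) w z + Qv b (a 1) (v 1) W g z = Real.exp (-W z) * F₁ z)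
    (h2 : ∀ z ∈ U, Qv b (a 1) (v 1) (fun z => -W z) w z - Qv b (a 0) (v 0) W g z = Real.exp (-W z) * F₂ z) :
    ∀ z ∈ U, ∑ k, Qv b (a k) (v k) (fun z => -W z) (Qv b (a k) (v k) W g) z = 0 := by
  intro z hz
  set V : E → ℝ := fun z => -W z with hV
  have sV : ContDiffOn ℝ ∞ V U := hW.neg
  have addf : ∀ (c : J → J → E → ℝ) (p : E → ℝ), (∀ i j, S (c i j)) → ∀ {x y : E → ℝ},
      ContDiffOn ℝ ∞ x U → ContDiffOn ℝ ∞ y U →
      Qv b c p V (fun z => x z + y z) z = Qv b c p V x z + Qv b c p V y z := by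
    intro c p hc x y hx hy
    obtain ⟨x', x1, x2⟩ := ext_at hU hz hx
    obtain ⟨y', y1, y2⟩ := ext_at hU hz hy
    have := Qv_add (e := b) (v := p) (W := V) hc x1 y1 z
    have xy : (fun w => x' w + y' w) =ᶠ[𝓝 z] fun w => x w + y w := by
      filter_upwards [x2, y2] with w k1 k2
      rw [k1, k2]
    rw [(Qv_congr (e := b) (a := c) (v := p) (EventuallyEq.refl _ V) x2).self_of_nhds,
      (Qv_congr (e := b) (a := c) (v := p) (EventuallyEq.refl _ V) y2).self_of_nhds,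
      (Qv_congr (e := b) (a := c) (v := p) (EventuallyEq.refl _ V) xy).self_of_nhds] at this
    exact this
  have k1 : Qv b (a 1) (v 1) V (fun z => Qv b (a 0) (v 0) V w z + Qv b (a 1) (v 1) W g z) z
      = Real.exp (-W z) * Lv b (a 1) (v 1) F₁ z := by
    rw [(Qv_congr (e := b) (a := a 1) (v := v 1) (EventuallyEq.refl _ V) (ev_of_on hU hz h1)).self_of_nhds]
    exact Pv_exp hU (ha 1) (hs 1) hW hF₁ hz
  have h2' : ∀ z ∈ U, Qv b (a 1) (v 1) V w z + (-1) * Qv b (a 0) (v 0) W g z = Real.exp (-W z) * F₂ z := by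
    intro z hz
    rw [← h2 z hz]
    ring
  have k2 : Qv b (a 0) (v 0) V (fun z => Qv b (a 1) (v 1) V w z + (-1) * Qv b (a 0) (v 0) W g z) z
      = Real.exp (-W z) * Lv b (a 0) (v 0) F₂ z := by
    rw [(Qv_congr (e := b) (a := a 0) (v := v 0) (EventuallyEq.refl _ V) (ev_of_on hU hz h2')).self_of_nhds]
    exact Pv_exp hU (ha 0) (hs 0) hW hF₂ hz
  have q0w := cdo_Qv (e := b) hU (ha 0) (hv 0) sV hw
  have q1w := cdo_Qv (e := b) hU (ha 1) (hv 1) sV hw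
  have q0g := cdo_Qv (e := b) hU (ha 0) (hv 0) hW hg
  have q1g := cdo_Qv (e := b) hU (ha 1) (hv 1) hW hg
  rw [addf (a 1) (v 1) (ha 1) q0w q1g] at k1
  rw [addf (a 0) (v 0) (ha 0) q1w (contDiffOn_const.mul q0g)] at k2
  have sm : Qv b (a 0) (v 0) V (fun z => (-1) * Qv b (a 0) (v 0) W g z) z
      = (-1) * Qv b (a 0) (v 0) V (Qv b (a 0) (v 0) W g) z := by
    obtain ⟨x', x1, x2⟩ := ext_at hU hz q0g
    have := Qv_smul (e := b) (v := v 0) (W := V) (ha 0) (-1) x1 z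
    have xy : (fun w => (-1) * x' w) =ᶠ[𝓝 z] fun w => (-1) * Qv b (a 0) (v 0) W g w := by
      filter_upwards [x2] with w k1
      rw [k1]
    rw [(Qv_congr (e := b) (a := a 0) (v := v 0) (EventuallyEq.refl _ V) x2).self_of_nhds,
      (Qv_congr (e := b) (a := a 0) (v := v 0) (EventuallyEq.refl _ V) xy).self_of_nhds] at this
    exact this
  rw [sm] at k2
  have cm := Pv_comm (e := b) hU (ha 0) (hs 0) (hv 0) (ha 1) (hs 1) (hv 1) hc hW hw hz
  have cp := comp z hz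
  rw [Fin.sum_univ_two]
  rw [← cp] at k2
  have cm' : Qv b (a 0) (v 0) V (Qv b (a 1) (v 1) V w) z = Qv b (a 1) (v 1) V (Qv b (a 0) (v 0) V w) z := cm
  linarith

/-- (SOL3) The overdetermined system `L₀ v = F₁`, `L₁ v = F₂` with an arbitrary weight. -/
theorem solv3 (hyp : RowHYP) (hU : IsOpen U) (hUc : IsPreconnected U) (b : Module.Basis J ℝ E)
    {a : Fin 2 → J → J → E → ℝ} {v : Fin 2 → E → ℝ} (ha : ∀ k i j, S (a k i j))
    (hs : ∀ k i j z, a k i j z = a k j i z) (hv : ∀ k, S (v k)) (hp : ∀ k, Pos (a k))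
    {θ : ℝ} (hθ : θ < 1) (hfb : ∀ k, Fb U b (a k) (v k) θ μ)
    (hell : ∀ z ∈ U, ∀ ξ : J → ℝ, ξ ≠ 0 → 0 < ∑ i, ∑ j, (a 0 i j z + a 1 i j z) * (ξ i * ξ j))
    (hc : ∀ f, S f → ∀ z, Lv b (a 0) (v 0) (Lv b (a 1) (v 1) f) z = Lv b (a 1) (v 1) (Lv b (a 0) (v 0) f) z)
    (hW : ContDiffOn ℝ ∞ W U) {C : ℝ} (hex : Exv U b a v W C)
    (hinf : ¬ IntegrableOn (fun z => Real.exp (2 * W z)) U μ)
    {o₁ o₂ : E → ℝ} (ho₁ : ContinuousOn o₁ U) (ho₂ : ContinuousOn o₂ U)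
    (p₁ : ∀ z ∈ U, 0 < o₁ z) (p₂ : ∀ z ∈ U, 0 < o₂ z) {C₂ : ℝ} (b₂ : ∀ z ∈ U, o₂ z ≤ C₂)
    {F₁ F₂ : E → ℝ} (hF₁ : ContDiffOn ℝ ∞ F₁ U) (hF₂ : ContDiffOn ℝ ∞ F₂ U)
    (comp : ∀ z ∈ U, Lv b (a 1) (v 1) F₁ z = Lv b (a 0) (v 0) F₂ z) {M : ℝ} (hM : 0 ≤ M)
    (est : ∀ a₁ a₂ : E → ℝ, Tt U a₁ → Tt U a₂ →
      (∫ z, Real.exp (-W z) * (F₁ z * a₁ z + F₂ z * a₂ z) ∂μ) ^ 2 ≤ M ^ 2 *
        ∫ z in U, (o₁ z * (Qv b (a 0) (v 0) W a₁ z + Qv b (a 1) (v 1) W a₂ z) ^ 2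
          + o₂ z * (Qv b (a 1) (v 1) (fun z => -W z) a₁ z - Qv b (a 0) (v 0) (fun z => -W z) a₂ z) ^ 2) ∂μ) :
    ∃ u : E → ℝ, ContDiffOn ℝ ∞ u U ∧ (∀ z ∈ U, Lv b (a 0) (v 0) u z = F₁ z) ∧
      (∀ z ∈ U, Lv b (a 1) (v 1) u z = F₂ z) ∧
      IntegrableOn (fun z => Real.exp (-(2 * W z)) * u z ^ 2 / o₁ z) U μ ∧
      ∫ z in U, Real.exp (-(2 * W z)) * u z ^ 2 / o₁ z ∂μ ≤ M ^ 2 := by
  set V : E → ℝ := fun z => -W z with hV
  have sV : ContDiffOn ℝ ∞ V U := hW.neg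
  set G₁ : E → ℝ := fun z => Real.exp (-W z) * F₁ z with hG₁
  set G₂ : E → ℝ := fun z => Real.exp (-W z) * F₂ z with hG₂
  have sG₁ : ContDiffOn ℝ ∞ G₁ U := (hW.neg.exp).mul hF₁
  have sG₂ : ContDiffOn ℝ ∞ G₂ U := (hW.neg.exp).mul hF₂
  -- the linear maps
  let A : TD U →ₗ[ℝ] (E → ℝ) :=
    { toFun := fun d z => Qv b (a 0) (v 0) W d.1.1 z + Qv b (a 1) (v 1) W d.1.2 z
      map_add' := fun x y => by
        ext z
        have e1 := Qv_add (e := b) (v := v 0) (W := W) (ha 0) x.2.1.s y.2.1.s z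
        have e2 := Qv_add (e := b) (v := v 1) (W := W) (ha 1) x.2.2.s y.2.2.s z
        change Qv b (a 0) (v 0) W (fun w => x.1.1 w + y.1.1 w) z
          + Qv b (a 1) (v 1) W (fun w => x.1.2 w + y.1.2 w) z = _
        rw [e1, e2]
        simp only [Pi.add_apply]
        ring
      map_smul' := fun c x => by
        ext z
        have e1 := Qv_smul (e := b) (v := v 0) (W := W) (ha 0) c x.2.1.s z
        have e2 := Qv_smul (e := b) (v := v 1) (W := W) (ha 1) c x.2.2.s z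
        change Qv b (a 0) (v 0) W (fun w => c * x.1.1 w) z + Qv b (a 1) (v 1) W (fun w => c * x.1.2 w) z = _
        rw [e1, e2]
        simp only [Pi.smul_apply, smul_eq_mul, RingHom.id_apply]
        ring }
  let B : TD U →ₗ[ℝ] (E → ℝ) :=
    { toFun := fun d z => Qv b (a 1) (v 1) V d.1.1 z - Qv b (a 0) (v 0) V d.1.2 z
      map_add' := fun x y => by
        ext z
        have e1 := Qv_add (e := b) (v := v 1) (W := V) (ha 1) x.2.1.s y.2.1.s z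
        have e2 := Qv_add (e := b) (v := v 0) (W := V) (ha 0) x.2.2.s y.2.2.s z
        change Qv b (a 1) (v 1) V (fun w => x.1.1 w + y.1.1 w) z
          - Qv b (a 0) (v 0) V (fun w => x.1.2 w + y.1.2 w) z = _
        rw [e1, e2]
        simp only [Pi.add_apply]
        ring
      map_smul' := fun c x => by
        ext z
        have e1 := Qv_smul (e := b) (v := v 1) (W := V) (ha 1) c x.2.1.s z
        have e2 := Qv_smul (e := b) (v := v 0) (W := V) (ha 0) c x.2.2.s z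
        change Qv b (a 1) (v 1) V (fun w => c * x.1.1 w) z - Qv b (a 0) (v 0) V (fun w => c * x.1.2 w) z = _
        rw [e1, e2]
        simp only [Pi.smul_apply, smul_eq_mul, RingHom.id_apply]
        ring }
  have iG : ∀ x y : E → ℝ, Tt U x → Tt U y →
      Integrable (fun z => G₁ z * x z + G₂ z * y z) μ := fun x y hx hy =>
    (Tt.int (Tt.mul hU sG₁ hx)).add (Tt.int (Tt.mul hU sG₂ hy))
  let l : TD U →ₗ[ℝ] ℝ :=
    { toFun := fun d => ∫ z, (G₁ z * d.1.1 z + G₂ z * d.1.2 z) ∂μ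
      map_add' := fun x y => by
        rw [← integral_add (iG _ _ x.2.1 x.2.2) (iG _ _ y.2.1 y.2.2)]
        congr 1
        ext z
        change G₁ z * (x.1.1 z + y.1.1 z) + G₂ z * (x.1.2 z + y.1.2 z) = _
        ring
      map_smul' := fun c x => by
        rw [RingHom.id_apply, smul_eq_mul, ← integral_const_mul]
        congr 1
        ext z
        change G₁ z * (c * x.1.1 z) + G₂ z * (c * x.1.2 z) = _
        ring }
  have hA : ∀ d, Tt U (A d) := fun d =>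
    (Tt.Qv hU (ha 0) (hv 0) hW d.2.1).add (Tt.Qv hU (ha 1) (hv 1) hW d.2.2)
  have hB : ∀ d, Tt U (B d) := by
    intro d
    have h1 := (Tt.Qv (e := b) hU (ha 1) (hv 1) sV d.2.1).add
      ((Tt.Qv (e := b) hU (ha 0) (hv 0) sV d.2.2).smul (-1))
    have h2 : (fun z => Qv b (a 1) (v 1) V d.1.1 z + -1 * Qv b (a 0) (v 0) V d.1.2 z) = B d := by
      ext z
      change _ = Qv b (a 1) (v 1) V d.1.1 z - Qv b (a 0) (v 0) V d.1.2 z
      ring
    rwa [h2] at h1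
  have hl : ∀ d, (l d) ^ 2 ≤ M ^ 2 * ∫ z in U, (o₁ z * A d z ^ 2 + o₂ z * B d z ^ 2) ∂μ := by
    intro d
    have h1 := est d.1.1 d.1.2 d.2.1 d.2.2
    have h2 : l d = ∫ z, Real.exp (-W z) * (F₁ z * d.1.1 z + F₂ z * d.1.2 z) ∂μ := by
      change ∫ z, (G₁ z * d.1.1 z + G₂ z * d.1.2 z) ∂μ = _
      congr 1
      ext z
      rw [hG₁, hG₂]
      ring
    rw [h2]
    exact h1
  obtain ⟨w, g, mw, mg, iw, ig, bd, wk⟩ := weak (μ := μ) hU ho₁ ho₂ p₁ p₂ A B hA hB l hM hl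
  have wk' : ∀ a₁ a₂ : E → ℝ, Tt U a₁ → Tt U a₂ →
      ∫ z in U, (w z * (Qv b (a 0) (v 0) W a₁ z + Qv b (a 1) (v 1) W a₂ z)
        + g z * (Qv b (a 1) (v 1) V a₁ z - Qv b (a 0) (v 0) V a₂ z)) ∂μ
        = ∫ z, (G₁ z * a₁ z + G₂ z * a₂ z) ∂μ := fun a₁ a₂ h1 h2 =>
    (wk ⟨(a₁, a₂), h1, h2⟩).symm
  -- from `U` to the whole space
  have full : ∀ (x y : E → ℝ) (a₁ a₂ : E → ℝ), Tt U a₁ → Tt U a₂ →
      ∫ z in U, (x z * (Qv b (a 0) (v 0) W a₁ z + Qv b (a 1) (v 1) W a₂ z)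
        + y z * (Qv b (a 1) (v 1) V a₁ z - Qv b (a 0) (v 0) V a₂ z)) ∂μ
      = ∫ z, (x z * (Qv b (a 0) (v 0) W a₁ z + Qv b (a 1) (v 1) W a₂ z)
        + y z * (Qv b (a 1) (v 1) V a₁ z - Qv b (a 0) (v 0) V a₂ z)) ∂μ := by
    intro x y a₁ a₂ h1 h2
    refine setIntegral_eq_integral_of_forall_compl_eq_zero fun z hz => ?_
    have off : ∀ (c : J → J → E → ℝ) (p X f : E → ℝ), Tt U f → Qv b c p X f z = 0 :=
      fun c p X f hf => image_eq_zero_of_notMem_tsupport fun k => hz (hf.t (ts_Qv f k))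
    rw [off _ _ _ _ h1, off _ _ _ _ h2, off _ _ _ _ h1, off _ _ _ _ h2]
    ring
  obtain ⟨w', g', sw, sg, aw, ag⟩ := regv (μ := μ) hyp hU b ha hv hp hell hW mw mg
    (fun k hk hkU => li ho₁ p₁ iw hk hkU) (fun k hk hkU => li ho₂ p₂ ig hk hkU) sG₁ sG₂
    (fun a₁ a₂ h1 h2 => by
      have := wk' a₁ a₂ h1 h2
      rw [full w g a₁ a₂ h1 h2] at this
      exact this)
  have wk2 : ∀ a₁ a₂ : E → ℝ, Tt U a₁ → Tt U a₂ →
      ∫ z, (w' z * (Qv b (a 0) (v 0) W a₁ z + Qv b (a 1) (v 1) W a₂ z)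
        + g' z * (Qv b (a 1) (v 1) V a₁ z - Qv b (a 0) (v 0) V a₂ z)) ∂μ
        = ∫ z, (G₁ z * a₁ z + G₂ z * a₂ z) ∂μ := by
    intro a₁ a₂ h1 h2
    rw [← full w' g' a₁ a₂ h1 h2, ← wk' a₁ a₂ h1 h2]
    refine setIntegral_congr_ae hU.measurableSet ?_
    filter_upwards [aw, ag] with z k1 k2 hz
    rw [k1 hz, k2 hz]
  obtain ⟨eq1, eq2⟩ := strongv (μ := μ) hU b ha hs hv hW sw sg sG₁ sG₂ wk2
  have top := topv_eq hU b ha hs hv hc hW sw sg hF₁ hF₂ comp eq1 eq2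
  have C20 : ∀ z ∈ U, g z ^ 2 ≤ C₂ * (g z ^ 2 / o₂ z) := by
    intro z hz
    have h1 := p₂ z hz
    rw [mul_div_assoc', le_div_iff₀ h1, mul_comm]
    exact mul_le_mul_of_nonneg_right (b₂ z hz) (sq_nonneg _)
  have ig2 : IntegrableOn (fun z => g' z ^ 2) U μ := by
    have h1 : IntegrableOn (fun z => C₂ * (g z ^ 2 / o₂ z)) U μ := ig.const_mul C₂
    refine Integrable.mono' h1 ((sg.continuousOn.pow 2).aestronglyMeasurable hU.measurableSet) ?_
    filter_upwards [ae_restrict_of_ae ag, ae_restrict_mem hU.measurableSet] with z k1 k2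
    rw [Real.norm_eq_abs, abs_of_nonneg (sq_nonneg _), k1 k2]
    exact C20 z k2
  have g0 := topv3 (μ := μ) hU hUc ha hs hv hp (ell_of b hell) hθ hfb hW hex hinf sg ig2 top
  have gq : ∀ (c : J → J → E → ℝ) (p : E → ℝ), ∀ z ∈ U, Qv b c p W g' z = 0 := by
    intro c p z hz
    have h1 : g' =ᶠ[𝓝 z] fun _ => (0 : ℝ) := ev_of_on hU hz g0
    rw [(Qv_congr (e := b) (a := c) (v := p) (EventuallyEq.refl _ W) h1).self_of_nhds]
    exact congrFun Qv_zero z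
  have sv : ContDiffOn ℝ ∞ (fun z => Real.exp (W z) * w' z) U := hW.exp.mul sw
  have fin1 : ∀ k, ∀ F : E → ℝ, (∀ z ∈ U, Qv b (a k) (v k) V w' z = Real.exp (-W z) * F z) →
      ∀ z ∈ U, Lv b (a k) (v k) (fun z => Real.exp (W z) * w' z) z = F z := by
    intro k F hF z hz
    have h1 := Pv_eq (e := b) (v := v k) hU (ha k) (hs k) hW sw hz
    have h2 : Qv b (a k) (v k) V w' z = Real.exp (-W z) * Lv b (a k) (v k) (fun w => Real.exp (W w) * w' w) z :=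
      h1
    rw [hF z hz] at h2
    exact (mul_left_cancel₀ (Real.exp_pos _).ne' h2).symm
  have sq : ∀ z, Real.exp (-(2 * W z)) * (Real.exp (W z) * w' z) ^ 2 = w' z ^ 2 := by
    intro z
    rw [mul_pow, ← mul_assoc, ← Real.exp_nat_mul, ← Real.exp_add]
    norm_num
  have ev : ∀ᵐ z ∂(μ.restrict U), w z ^ 2 / o₁ z
      = Real.exp (-(2 * W z)) * (Real.exp (W z) * w' z) ^ 2 / o₁ z := by
    filter_upwards [ae_restrict_of_ae aw, ae_restrict_mem hU.measurableSet] with z k1 k2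
    rw [sq, k1 k2]
  refine ⟨fun z => Real.exp (W z) * w' z, sv, fin1 0 F₁ fun z hz => ?_,
    fin1 1 F₂ fun z hz => ?_, iw.congr ev, ?_⟩
  · have := eq1 z hz
    rw [gq (a 1) (v 1) z hz, add_zero] at this
    exact this
  · have := eq2 z hz
    rw [gq (a 0) (v 0) z hz, sub_zero] at this
    exact this
  · rw [← integral_congr_ae ev]
    have : 0 ≤ ∫ z in U, g z ^ 2 / o₂ z ∂μ :=
      setIntegral_nonneg hU.measurableSet fun z hz => div_nonneg (sq_nonneg _) (p₂ z hz).le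
    linarith

end Vale.Agent.P088.R2.H269
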