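import Vale.Agent.P088.R2.H269.X.X6

/-!
# P088, stage 3: Hardy's inequality in one of the two variables
-/

open MeasureTheory Set Filter
open scoped ContDiff Matrix Topology

noncomputable section

set_option linter.unusedSectionVars false

namespace Vale.Agent.P088.R2.H269

open Vale.Agent.P088.LR Vale.Agent.P088.HY

variable {n : ℕ}

/-- `1 + |x|²` for the coordinates `κ` -/
def rh (κ : Fin n → Fin n ⊕ Fin n) (z : VV n) : ℝ := 1 + ∑ j, co (κ j) z ^ 2

lemma rh_pos (κ : Fin n → Fin n ⊕ Fin n) (z : VV n) : 0 < rh κ z := by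
  unfold rh
  have : 0 ≤ ∑ j, co (κ j) z ^ 2 := Finset.sum_nonneg fun _ _ => sq_nonneg _
  linarith

lemma sm_rh (κ : Fin n → Fin n ⊕ Fin n) : S (rh κ : VV n → ℝ) :=
  contDiff_const.add (S.sum fun _ _ => (sm_co _).pow 2)

/-- `(1 + |x|²)⁻¹` -/
def ri (κ : Fin n → Fin n ⊕ Fin n) (z : VV n) : ℝ := (rh κ z)⁻¹

lemma sm_ri (κ : Fin n → Fin n ⊕ Fin n) : S (ri κ : VV n → ℝ) :=
  (sm_rh κ).inv fun z => (rh_pos κ z).ne'

lemma ri_pos (κ : Fin n → Fin n ⊕ Fin n) (z : VV n) : 0 < ri κ z := inv_pos.2 (rh_pos κ z)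

lemma db_rh {κ : Fin n → Fin n ⊕ Fin n} (hκ : Function.Injective κ) (i : Fin n) (z : VV n) :
    db (bs n) (κ i) (rh κ) z = 2 * co (κ i) z := by
  have h1 : rh κ = fun z : VV n => 1 + ∑ j, co (κ j) z * co (κ j) z := by
    ext z
    unfold rh
    simp only [pow_two]
  have hsum : ∀ (t : Finset (Fin n)), db (bs n) (κ i) (fun z : VV n => ∑ j ∈ t, co (κ j) z
      * co (κ j) z) z = ∑ j ∈ t, 2 * co (κ j) z * (if κ j = κ i then 1 else 0) := by
    intro t
    classical
    induction t using Finset.induction_on with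
    | empty =>
      simp only [Finset.sum_empty]
      exact db_const 0 _ z
    | insert a t ha ih =>
      simp only [Finset.sum_insert ha]
      rw [db_add ((sm_co _).mul (sm_co _)) (S.sum fun j _ => (sm_co _).mul (sm_co _)), ih,
        db_mul (sm_co _) (sm_co _), db_co]
      ring
  rw [h1, db_add contDiff_const (S.sum fun j _ => (sm_co _).mul (sm_co _)), db_const, hsum,
    zero_add]
  simp only [hκ.eq_iff, mul_ite, mul_one, mul_zero]
  rw [Finset.sum_ite_eq' Finset.univ i]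
  simp

lemma db_ri {κ : Fin n → Fin n ⊕ Fin n} (hκ : Function.Injective κ) (i : Fin n) (z : VV n) :
    db (bs n) (κ i) (ri κ) z = -(ri κ z ^ 2 * (2 * co (κ i) z)) := by
  have h1 : (fun z : VV n => rh κ z * ri κ z) = fun _ => 1 := by
    ext z
    exact mul_inv_cancel₀ (rh_pos κ z).ne'
  have h2 := db_mul (e := bs n) (sm_rh κ) (sm_ri κ) (κ i) z
  rw [h1, db_const, db_rh hκ] at h2
  have h3 : ri κ z * rh κ z = 1 := inv_mul_cancel₀ (rh_pos κ z).ne'
  linear_combination (-ri κ z) * h2 - db (bs n) (κ i) (ri κ) z * h3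

/-- Hardy's inequality. -/
theorem hardy (hn : 3 ≤ n) {κ : Fin n → Fin n ⊕ Fin n} (hκ : Function.Injective κ) {f : VV n → ℝ}
    (hf : S f) (hc : HasCompactSupport f) :
    ∫ z, ri κ z * f z ^ 2 ≤ 4 * ∫ z, ∑ i, db (bs n) (κ i) f z ^ 2 := by
  have hff : S (fun z => f z * f z) := hf.mul hf
  have cff : HasCompactSupport (fun z => f z * f z) := cs_mul_right hc
  have sX : ∀ i, S (fun z : VV n => co (κ i) z * ri κ z) := fun i => (sm_co _).mul (sm_ri κ)
  have dX : ∀ i z, db (bs n) (κ i) (fun z : VV n => co (κ i) z * ri κ z) z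
      = ri κ z - 2 * (ri κ z ^ 2 * co (κ i) z ^ 2) := by
    intro i z
    rw [db_mul (sm_co _) (sm_ri κ), db_co, db_ri hκ, if_pos rfl]
    ring
  have I1 : ∀ i, Integrable (fun z : VV n => (ri κ z - 2 * (ri κ z ^ 2 * co (κ i) z ^ 2))
      * (f z * f z)) := fun i =>
    S.int (((sm_ri κ).sub (contDiff_const.mul (((sm_ri κ).pow 2).mul ((sm_co _).pow 2)))).mul hff)
      (cs_mul_left cff)
  have I2 : ∀ i, Integrable (fun z : VV n => (co (κ i) z * ri κ z)
      * db (bs n) (κ i) (fun z => f z * f z) z) := fun i =>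
    S.int ((sX i).mul (hff.db _)) (cs_mul_left (cs_db cff _))
  have key : ∀ i, ∫ z, ((co (κ i) z * ri κ z) * db (bs n) (κ i) (fun z => f z * f z) z
      + (ri κ z - 2 * (ri κ z ^ 2 * co (κ i) z ^ 2)) * (f z * f z)) = 0 := by
    intro i
    have h := ibp_db (μ := (volume : Measure (VV n))) (e := bs n) (sX i) hff (Or.inr cff) (κ i)
    simp only [dX] at h
    rw [integral_add (I2 i) (I1 i), h]
    ring
  have I3 : ∀ i, Integrable (fun z : VV n => (co (κ i) z * ri κ z)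
      * db (bs n) (κ i) (fun z => f z * f z) z
      + (ri κ z - 2 * (ri κ z ^ 2 * co (κ i) z ^ 2)) * (f z * f z)) := fun i => (I2 i).add (I1 i)
  have z1 : ∫ z, ∑ i, ((co (κ i) z * ri κ z) * db (bs n) (κ i) (fun z => f z * f z) z
      + (ri κ z - 2 * (ri κ z ^ 2 * co (κ i) z ^ 2)) * (f z * f z)) = 0 := by
    rw [integral_finsetSum _ fun i _ => I3 i]
    exact Finset.sum_eq_zero fun i _ => key i
  have c2 : HasCompactSupport (fun z => f z ^ 2) := by
    simpa only [pow_two] using cff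
  have J1 : Integrable (fun z => ri κ z * f z ^ 2) := S.int ((sm_ri κ).mul (hf.pow 2)) (cs_mul_left c2)
  have J2 : Integrable (fun z => ∑ i, db (bs n) (κ i) f z ^ 2) := by
    refine integrable_finsetSum _ fun i _ => ?_
    have : HasCompactSupport (fun z => db (bs n) (κ i) f z ^ 2) := by
      have := cs_mul_right (g := db (bs n) (κ i) f) (cs_db (e := bs n) hc (κ i))
      simpa only [pow_two] using this
    exact S.int ((hf.db _).pow 2) this
  have lb : ∀ z, (1 / 2) * (ri κ z * f z ^ 2) - 2 * ∑ i, db (bs n) (κ i) f z ^ 2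
      ≤ ∑ i, ((co (κ i) z * ri κ z) * db (bs n) (κ i) (fun z => f z * f z) z
      + (ri κ z - 2 * (ri κ z ^ 2 * co (κ i) z ^ 2)) * (f z * f z)) := by
    intro z
    have h1 : ∀ i, (co (κ i) z * ri κ z) * db (bs n) (κ i) (fun z => f z * f z) z
        ≥ -((1 / 2) * (ri κ z ^ 2 * co (κ i) z ^ 2 * f z ^ 2) + 2 * db (bs n) (κ i) f z ^ 2) := by
      intro i
      rw [db_mul hf hf]
      nlinarith [sq_nonneg (co (κ i) z * ri κ z * f z + 2 * db (bs n) (κ i) f z)]
    have r0 := ri_pos κ z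
    have r1 : ri κ z * rh κ z = 1 := inv_mul_cancel₀ (rh_pos κ z).ne'
    have r2 : ri κ z ^ 2 * ∑ i, co (κ i) z ^ 2 = ri κ z - ri κ z ^ 2 := by
      have : ∑ i, co (κ i) z ^ 2 = rh κ z - 1 := by
        unfold rh
        ring
      rw [this]
      linear_combination ri κ z * r1
    have h2 : ∑ i, (-((1 / 2) * (ri κ z ^ 2 * co (κ i) z ^ 2 * f z ^ 2)
        + 2 * db (bs n) (κ i) f z ^ 2)
        + (ri κ z - 2 * (ri κ z ^ 2 * co (κ i) z ^ 2)) * (f z * f z))
        = (n * ri κ z - (5 / 2) * (ri κ z ^ 2 * ∑ i, co (κ i) z ^ 2)) * f z ^ 2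
          - 2 * ∑ i, db (bs n) (κ i) f z ^ 2 := by
      have e1 : ∀ i : Fin n, (-((1 / 2) * (ri κ z ^ 2 * co (κ i) z ^ 2 * f z ^ 2)
        + 2 * db (bs n) (κ i) f z ^ 2)
        + (ri κ z - 2 * (ri κ z ^ 2 * co (κ i) z ^ 2)) * (f z * f z))
        = ri κ z * f z ^ 2 - (5 / 2) * ri κ z ^ 2 * f z ^ 2 * co (κ i) z ^ 2
          - 2 * db (bs n) (κ i) f z ^ 2 := fun i => by ring
      rw [Finset.sum_congr rfl fun i _ => e1 i, Finset.sum_sub_distrib, Finset.sum_sub_distrib,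
        Finset.sum_const, Finset.card_univ, Fintype.card_fin, nsmul_eq_mul, ← Finset.mul_sum,
        ← Finset.mul_sum]
      ring
    have h3 : ∑ i, (-((1 / 2) * (ri κ z ^ 2 * co (κ i) z ^ 2 * f z ^ 2)
        + 2 * db (bs n) (κ i) f z ^ 2)
        + (ri κ z - 2 * (ri κ z ^ 2 * co (κ i) z ^ 2)) * (f z * f z))
        ≤ ∑ i, ((co (κ i) z * ri κ z) * db (bs n) (κ i) (fun z => f z * f z) z
      + (ri κ z - 2 * (ri κ z ^ 2 * co (κ i) z ^ 2)) * (f z * f z)) :=
      Finset.sum_le_sum fun i _ => by linarith [h1 i]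
    rw [h2, r2] at h3
    refine le_trans ?_ h3
    have n3 : (3 : ℝ) ≤ n := by exact_mod_cast hn
    have f0 := sq_nonneg (f z)
    have k1 : (1 / 2) * ri κ z ≤ n * ri κ z - (5 / 2) * (ri κ z - ri κ z ^ 2) := by
      nlinarith [mul_le_mul_of_nonneg_right n3 r0.le, sq_nonneg (ri κ z)]
    nlinarith [mul_le_mul_of_nonneg_right k1 f0]
  have fin : ∫ z, ((1 / 2) * (ri κ z * f z ^ 2) - 2 * ∑ i, db (bs n) (κ i) f z ^ 2) ≤ 0 := by
    rw [← z1]
    exact integral_mono ((J1.const_mul _).sub (J2.const_mul _))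
      (integrable_finsetSum _ fun i _ => I3 i) lb
  rw [integral_sub (J1.const_mul _) (J2.const_mul _), integral_const_mul, integral_const_mul] at fin
  linarith

/-- Small potentials are form bounded. -/
theorem fb_of (hn : 3 ≤ n) {κ : Fin n → Fin n ⊕ Fin n} (hκ : Function.Injective κ)
    {a : Fin n ⊕ Fin n → Fin n ⊕ Fin n → VV n → ℝ} (ha : ∀ i j, S (a i j)) {v : VV n → ℝ} (hv : S v)
    {ε c₀ : ℝ} (hε : 0 ≤ ε) (hc₀ : 0 < c₀) (hb : ∀ z, v z ≤ ε * ri κ z)
    (hell : ∀ (f : VV n → ℝ) z, c₀ * ∑ i, db (bs n) (κ i) f z ^ 2 ≤ Gm (bs n) a f f z) :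
    Fb univ (bs n) a v (4 * ε / c₀) volume := by
  intro f hf
  have c2 : HasCompactSupport (fun z => f z ^ 2) := by
    have := cs_mul_right (g := f) hf.c
    simpa only [pow_two] using this
  have J1 : Integrable (fun z => ri κ z * f z ^ 2) :=
    S.int ((sm_ri κ).mul (hf.s.pow 2)) (cs_mul_left c2)
  have J2 : Integrable (fun z => v z * f z ^ 2) :=
    S.int (hv.mul (hf.s.pow 2)) (cs_mul_left c2)
  have J3 : Integrable (fun z => ∑ i, db (bs n) (κ i) f z ^ 2) := by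
    refine integrable_finsetSum _ fun i _ => ?_
    have : HasCompactSupport (fun z => db (bs n) (κ i) f z ^ 2) := by
      have := cs_mul_right (g := db (bs n) (κ i) f) (cs_db (e := bs n) hf.c (κ i))
      simpa only [pow_two] using this
    exact S.int ((S.db hf.s _).pow 2) this
  have J4 : Integrable (fun z => Gm (bs n) a f f z) :=
    S.int (S.Gm ha hf.s hf.s) (cs_Gm_left hf.c f)
  have h1 : ∫ z, v z * f z ^ 2 ≤ ε * ∫ z, ri κ z * f z ^ 2 := by
    rw [← integral_const_mul]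
    refine integral_mono J2 (J1.const_mul ε) fun z => ?_
    have := mul_le_mul_of_nonneg_right (hb z) (sq_nonneg (f z))
    simp only
    linarith
  have h2 := hardy hn hκ hf.s hf.c
  have h3 : c₀ * ∫ z, ∑ i, db (bs n) (κ i) f z ^ 2 ≤ ∫ z, Gm (bs n) a f f z := by
    rw [← integral_const_mul]
    exact integral_mono (J3.const_mul c₀) J4 fun z => hell f z
  have h4 : ∫ z, ∑ i, db (bs n) (κ i) f z ^ 2 ≤ (∫ z, Gm (bs n) a f f z) / c₀ := by
    rw [le_div_iff₀ hc₀, mul_comm]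
    exact h3
  calc ∫ z, v z * f z ^ 2 ≤ ε * ∫ z, ri κ z * f z ^ 2 := h1
    _ ≤ ε * (4 * ∫ z, ∑ i, db (bs n) (κ i) f z ^ 2) := mul_le_mul_of_nonneg_left h2 hε
    _ ≤ ε * (4 * ((∫ z, Gm (bs n) a f f z) / c₀)) :=
      mul_le_mul_of_nonneg_left (mul_le_mul_of_nonneg_left h4 (by norm_num)) hε
    _ = _ := by ring

end Vale.Agent.P088.R2.H269
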