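import Vale.Agent.P088.R2.H269.X.X7

/-!
# P088, stage 3: doubly harmonic corrections, operators with potentials

The form of SOL3 for `L = div (s ∇) + v`.
-/

open MeasureTheory Set Filter
open scoped ContDiff Matrix Topology

noncomputable section

set_option linter.unusedSectionVars false

namespace Vale.Agent.P088.R2.H269

open Vale.Agent.P088.LR Vale.Agent.P088.HY

variable {n : ℕ}

/-- `L_x f = ∑ ∂_{x_i} (s_ij ∂_{x_j} f) + v f` -/
def DXv (s : MF n) (v : V n → ℝ) (f : VV n → ℝ) (z : VV n) : ℝ := DX s f z + v z.1 * f z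

/-- `L_y f = ∑ ∂_{y_i} (s_ij ∂_{y_j} f) + v f` -/
def DYv (s : MF n) (v : V n → ℝ) (f : VV n → ℝ) (z : VV n) : ℝ := DY s f z + v z.2 * f z

/-- `P_x^* f = e^W L_x (e^{-W} f)` -/
def QXv (s : MF n) (v : V n → ℝ) (W f : VV n → ℝ) (z : VV n) : ℝ := QX s W f z + v z.1 * f z

/-- `P_y^* f = e^W L_y (e^{-W} f)` -/
def QYv (s : MF n) (v : V n → ℝ) (W f : VV n → ℝ) (z : VV n) : ℝ := QY s W f z + v z.2 * f z

/-- `P_x f = e^{-W} L_x (e^W f)` -/
def PXv (s : MF n) (v : V n → ℝ) (W f : VV n → ℝ) (z : VV n) : ℝ := PX s W f z + v z.1 * f z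

/-- `P_y f = e^{-W} L_y (e^W f)` -/
def PYv (s : MF n) (v : V n → ℝ) (W f : VV n → ℝ) (z : VV n) : ℝ := PY s W f z + v z.2 * f z

lemma DXv_exp {s : MF n} (hs : SmM s) (hy : ∀ x, (s x).IsSymm) {v : V n → ℝ} {W f : VV n → ℝ}
    (hW : S W) (hf : S f) (z : VV n) :
    QXv s v W f z = Real.exp (W z) * DXv s v (fun w => Real.exp (-W w) * f w) z := by
  unfold QXv DXv
  rw [QX_exp hs hy hW hf, mul_add]
  congr 1
  have h1 : Real.exp (W z) * Real.exp (-W z) = 1 := by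
    rw [← Real.exp_add]
    simp
  calc v z.1 * f z = (Real.exp (W z) * Real.exp (-W z)) * (v z.1 * f z) := by rw [h1, one_mul]
    _ = _ := by ring

lemma DYv_exp {s : MF n} (hs : SmM s) (hy : ∀ x, (s x).IsSymm) {v : V n → ℝ} {W f : VV n → ℝ}
    (hW : S W) (hf : S f) (z : VV n) :
    QYv s v W f z = Real.exp (W z) * DYv s v (fun w => Real.exp (-W w) * f w) z := by
  unfold QYv DYv
  rw [QY_exp hs hy hW hf, mul_add]
  congr 1
  have h1 : Real.exp (W z) * Real.exp (-W z) = 1 := by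
    rw [← Real.exp_add]
    simp
  calc v z.2 * f z = (Real.exp (W z) * Real.exp (-W z)) * (v z.2 * f z) := by rw [h1, one_mul]
    _ = _ := by ring

/-- `DX` commutes with the multiplication by functions of `y` -/
lemma DX_mul2 {s : MF n} (hs : SmM s) {c g : VV n → ℝ} (hc : S c)
    (c0 : ∀ w k, HY.dx k c w = 0) (hg : S g) :
    DX s (fun w => c w * g w) = fun w => c w * DX s g w := by
  ext z
  unfold DX
  simp only [Finset.mul_sum]
  refine Finset.sum_congr rfl fun i _ => Finset.sum_congr rfl fun j _ => ?_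
  have s1 : S (fun w : VV n => s w.1 i j) := (hs i j).comp contDiff_fst
  rw [dx_mul2 hc c0 hg j]
  have e1 : (fun w : VV n => s w.1 i j * (c w * HY.dx j g w))
      = fun w => c w * (s w.1 i j * HY.dx j g w) := by
    ext w
    ring
  rw [e1, dx_mul2 hc c0 (s1.mul (hg.dx j)) i]

/-- `DY` commutes with the multiplication by functions of `x` -/
lemma DY_mul1 {s : MF n} (hs : SmM s) {c g : VV n → ℝ} (hc : S c)
    (c0 : ∀ w k, HY.dy k c w = 0) (hg : S g) :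
    DY s (fun w => c w * g w) = fun w => c w * DY s g w := by
  ext z
  unfold DY
  simp only [Finset.mul_sum]
  refine Finset.sum_congr rfl fun i _ => Finset.sum_congr rfl fun j _ => ?_
  have s1 : S (fun w : VV n => s w.2 i j) := (hs i j).comp contDiff_snd
  rw [dy_mul1 hc c0 hg j]
  have e1 : (fun w : VV n => s w.2 i j * (c w * HY.dy j g w))
      = fun w => c w * (s w.2 i j * HY.dy j g w) := by
    ext w
    ring
  rw [e1, dy_mul1 hc c0 (s1.mul (hg.dy j)) i]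

/-- the operators in the two variables commute -/
theorem DXv_DYv {s₁ s₂ : MF n} (h₁ : SmM s₁) (h₂ : SmM s₂) {v₁ v₂ : V n → ℝ}
    (p₁ : ContDiff ℝ ∞ v₁) (p₂ : ContDiff ℝ ∞ v₂) {f : VV n → ℝ} (hf : S f) (z : VV n) :
    DXv s₁ v₁ (DYv s₂ v₂ f) z = DYv s₂ v₂ (DXv s₁ v₁ f) z := by
  have q1 : S (fun w : VV n => v₁ w.1) := p₁.comp contDiff_fst
  have q2 : S (fun w : VV n => v₂ w.2) := p₂.comp contDiff_snd
  have z1 : ∀ (w : VV n) k, HY.dy k (fun w : VV n => v₁ w.1) w = 0 := fun w k =>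
    dy_fst' w (p₁.differentiable (by simp) _) k
  have z2 : ∀ (w : VV n) k, HY.dx k (fun w : VV n => v₂ w.2) w = 0 := fun w k =>
    dx_snd' w (p₂.differentiable (by simp) _) k
  have sX : S (DX s₁ f) := by
    rw [← Ld_aX]
    exact S.Ld (sm_aX h₁) hf
  have sY : S (DY s₂ f) := by
    rw [← Ld_aY]
    exact S.Ld (sm_aY h₂) hf
  have a1 : DX s₁ (DYv s₂ v₂ f) z = DX s₁ (DY s₂ f) z + v₂ z.2 * DX s₁ f z := by
    have := Ld_add (e := bs n) (sm_aX h₁) sY (q2.mul hf) z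
    rw [Ld_aX, Ld_aX, Ld_aX, DX_mul2 h₁ q2 z2 hf] at this
    exact this
  have a2 : DY s₂ (DXv s₁ v₁ f) z = DY s₂ (DX s₁ f) z + v₁ z.1 * DY s₂ f z := by
    have := Ld_add (e := bs n) (sm_aY h₂) sX (q1.mul hf) z
    rw [Ld_aY, Ld_aY, Ld_aY, DY_mul1 h₂ q1 z1 hf] at this
    exact this
  have a3 : DXv s₁ v₁ (DYv s₂ v₂ f) z = DX s₁ (DYv s₂ v₂ f) z + v₁ z.1 * DYv s₂ v₂ f z := rfl
  have a4 : DYv s₂ v₂ (DXv s₁ v₁ f) z = DY s₂ (DXv s₁ v₁ f) z + v₂ z.2 * DXv s₁ v₁ f z := rfl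
  rw [a3, a4, a1, a2, DX_DY h₁ h₂ hf]
  unfold DXv DYv
  ring

/-- both potentials -/
def vv (v₁ v₂ : V n → ℝ) (k : Fin 2) : VV n → ℝ := if k = 0 then fun z => v₁ z.1 else fun z => v₂ z.2

lemma vv0 (v₁ v₂ : V n → ℝ) : vv v₁ v₂ 0 = fun z => v₁ z.1 := rfl

lemma vv1 (v₁ v₂ : V n → ℝ) : vv v₁ v₂ 1 = fun z => v₂ z.2 := rfl

lemma Lv_aX (s : MF n) (v : V n → ℝ) (f : VV n → ℝ) :
    Lv (bs n) (aX s) (fun z => v z.1) f = DXv s v f := by
  ext z
  unfold Lv DXv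
  rw [Ld_aX]

lemma Lv_aY (s : MF n) (v : V n → ℝ) (f : VV n → ℝ) :
    Lv (bs n) (aY s) (fun z => v z.2) f = DYv s v f := by
  ext z
  unfold Lv DYv
  rw [Ld_aY]

lemma QXv_eq (s : MF n) (v : V n → ℝ) (W f : VV n → ℝ) :
    QXv s v W f = Qv (bs n) (aX s) (fun z => v z.1) W f := by
  ext z
  unfold QXv Qv
  rw [QX_eq]

lemma QYv_eq (s : MF n) (v : V n → ℝ) (W f : VV n → ℝ) :
    QYv s v W f = Qv (bs n) (aY s) (fun z => v z.2) W f := by
  ext z
  unfold QYv Qv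
  rw [QY_eq]

lemma PXv_eq {s : MF n} (hs : SmM s) (v : V n → ℝ) {W : VV n → ℝ} (hW : S W) (f : VV n → ℝ) :
    PXv s v W f = Qv (bs n) (aX s) (fun z => v z.1) (fun z => -W z) f := by
  ext z
  unfold PXv Qv
  rw [PX_eq hs hW]

lemma PYv_eq {s : MF n} (hs : SmM s) (v : V n → ℝ) {W : VV n → ℝ} (hW : S W) (f : VV n → ℝ) :
    PYv s v W f = Qv (bs n) (aY s) (fun z => v z.2) (fun z => -W z) f := by
  ext z
  unfold PYv Qv
  rw [PY_eq hs hW]

/-- Smooth uniformly elliptic tensors and small potentials, bounded with the first derivatives of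
the tensors. -/
structure Tp (B c₀ ε : ℝ) (s : MF n) (v : V n → ℝ) : Prop where
  sm : SmM s
  sy : ∀ x, (s x).IsSymm
  lo : ∀ x (ξ : Fin n → ℝ), c₀ * ∑ i, ξ i ^ 2 ≤ ∑ i, ∑ j, s x i j * (ξ i * ξ j)
  b0 : ∀ x i j, |s x i j| ≤ B
  b1 : ∀ x i j k, |LR.pd k (fun y => s y i j) x| ≤ B
  sv : ContDiff ℝ ∞ v
  bv : ∀ x, |v x| ≤ B
  hv : ∀ x, v x * (1 + HY.sq x) ≤ ε

lemma Tp.tn {B c₀ ε : ℝ} (hc : 0 < c₀) {s : MF n} {v : V n → ℝ} (h : Tp B c₀ ε s v) : Tn B s := by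
  refine ⟨h.sm, h.sy, fun x ξ hξ => ?_, h.b0, h.b1⟩
  have h1 := h.lo x ξ
  have h2 : 0 < ∑ i, ξ i ^ 2 := by
    obtain ⟨i, hi⟩ : ∃ i, ξ i ≠ 0 := by
      by_contra hne
      push Not at hne
      exact hξ (funext hne)
    exact Finset.sum_pos' (fun i _ => sq_nonneg _) ⟨i, Finset.mem_univ i, by positivity⟩
  have h3 : 0 < c₀ * ∑ i, ξ i ^ 2 := mul_pos hc h2
  exact lt_of_lt_of_le h3 h1

end Vale.Agent.P088.R2.H269
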